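import Vale.Agent.P025.R2.H746.Defs

/-!
# (7.2a): nearest elements and `p`-th powers

`K ≤ W`, `w1` an absolute value of `W` over `w`, and a family `u` of elements of `W` which spans
`W` over `K` and whose residues are independent over the residue field of `w`.
-/

set_option linter.all false

namespace P025H992

open P025H746

variable {C K W : Type*} [NormedField C] [IsUltrametricDist C] [Field K] [Algebra C K]
  [Field W] [Algebra C W] [Algebra K W] [IsScalarTower C K W]

/-- a family of elements of `W` whose residues are independent over the residue field of `w`. -/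
structure RedFam (w : NV C K) (w1 : NV C W) {ι : Type*} [Fintype ι] (u : ι → W) : Prop where
  le : ∀ i, w1 (u i) ≤ 1
  ind : ∀ y : ι → K, (∀ i, w (y i) ≤ 1) → w1 (∑ i, algebraMap K W (y i) * u i) < 1 →
    ∀ i, w (y i) < 1

theorem nv_natCast (w : NV C K) (n : ℕ) : w (n : K) = ‖(n : C)‖ := by
  rw [← w.ext', map_natCast (algebraMap C K)]

/-- the `p`-th power of a sum of two integral elements. -/
theorem add_pow_ring (w1 : NV C W) {p : ℕ} (hp : p.Prime) {x y : W} (hx : w1 x ≤ 1)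
    (hy : w1 y ≤ 1) : ∃ r, w1 r ≤ 1 ∧ (x + y) ^ p = x ^ p + y ^ p + p * x * y * r := by
  obtain ⟨r, hr⟩ := exists_add_pow_prime_eq hp (⟨x, hx⟩ : w1.ring) ⟨y, hy⟩
  refine ⟨r, r.2, ?_⟩
  have := congrArg Subtype.val hr
  simpa using this

theorem RedFam.eq {w : NV C K} {w1 : NV C W} {ι : Type*} [Fintype ι] {u : ι → W}
    (hw : ∀ x : K, w1 (algebraMap K W x) = w x) (hn : ∀ r : ℝ, 0 ≤ r → ∃ x : C, ‖x‖ = r)
    (hu : RedFam w w1 u) (y : ι → K) (m : ι) (hm : ∀ i, w (y i) ≤ w (y m)) :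
    w1 (∑ i, algebraMap K W (y i) * u i) = w (y m) := by
  classical
  by_cases h0 : w (y m) = 0
  · have h1 : ∀ i, y i = 0 := by
      intro i
      refine w.av.eq_zero.1 (le_antisymm ?_ (w.av.nonneg _))
      exact (hm i).trans h0.le
    rw [h0]
    rw [Finset.sum_eq_zero fun i _ => by rw [h1 i, map_zero, zero_mul]]
    exact map_zero _
  obtain ⟨c, hc⟩ := hn (w (y m)) (w.av.nonneg _)
  have hc0 : c ≠ 0 := by
    rintro rfl
    rw [norm_zero] at hc
    exact h0 hc.symm
  have hcK : algebraMap C K c ≠ 0 := (map_ne_zero _).2 hc0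
  obtain ⟨y', hy'⟩ : ∃ y' : ι → K, y' = fun i => (algebraMap C K c)⁻¹ * y i := ⟨_, rfl⟩
  have hyi : ∀ i, w (y' i) = ‖c‖⁻¹ * w (y i) := by
    intro i
    rw [hy']
    change w ((algebraMap C K c)⁻¹ * y i) = _
    rw [map_mul, map_inv₀, w.ext']
  have hcpos : 0 < ‖c‖ := norm_pos_iff.2 hc0
  have h1 : ∀ i, w (y' i) ≤ 1 := by
    intro i
    rw [hyi, inv_mul_le_iff₀ hcpos, mul_one, hc]
    exact hm i
  have h2 : w (y' m) = 1 := by
    rw [hyi, hc, inv_mul_cancel₀ h0]
  have h3 : w1 (∑ i, algebraMap K W (y' i) * u i) = 1 := by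
    refine le_antisymm (NV.sum_le zero_le_one fun i _ => NV.mul_le_one (by rw [hw]; exact h1 i)
      (hu.le i)) ?_
    by_contra hlt
    push Not at hlt
    have := hu.ind y' h1 hlt m
    rw [h2] at this
    exact lt_irrefl _ this
  have h4 : ∑ i, algebraMap K W (y i) * u i =
      algebraMap C W c * ∑ i, algebraMap K W (y' i) * u i := by
    rw [Finset.mul_sum]
    refine Finset.sum_congr rfl fun i _ => ?_
    rw [← mul_assoc, IsScalarTower.algebraMap_apply C K W, ← map_mul, hy']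
    congr 2
    change y i = algebraMap C K c * ((algebraMap C K c)⁻¹ * y i)
    rw [← mul_assoc, mul_inv_cancel₀ hcK, one_mul]
  rw [h4, map_mul, w1.ext', h3, mul_one, hc]

/-- an element outside `K` has a nearest element in `K`. -/
theorem RedFam.nearest {w : NV C K} {w1 : NV C W} {ι : Type*} [Fintype ι] {u : ι → W}
    (hw : ∀ x : K, w1 (algebraMap K W x) = w x) (hn : ∀ r : ℝ, 0 ≤ r → ∃ x : C, ‖x‖ = r)
    (hu : RedFam w w1 u) {i0 : ι} (hu0 : u i0 = 1) (y : ι → K) :
    (∀ i, i ≠ i0 → y i = 0) ∨ ∃ (β : C) (z : W), β ≠ 0 ∧ w1 z = 1 ∧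
      ∑ i, algebraMap K W (y i) * u i = algebraMap K W (y i0) + algebraMap C W β * z ∧
      ∀ a : K, w a ≤ 1 → w1 (z - algebraMap K W a) = 1 := by
  classical
  by_cases hall : ∀ i, i ≠ i0 → y i = 0
  · exact Or.inl hall
  right
  push Not at hall
  obtain ⟨i1, hi1, hi1'⟩ := hall
  obtain ⟨m, hm, hm'⟩ := Finset.exists_max_image (Finset.univ.filter fun i => i ≠ i0)
    (fun i => w (y i)) ⟨i1, by simp [hi1]⟩
  simp only [Finset.mem_filter, Finset.mem_univ, true_and] at hm hm'
  have hpos : 0 < w (y m) :=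
    lt_of_lt_of_le ((w.av.pos_iff).2 hi1') (hm' i1 hi1)
  obtain ⟨β, hβ⟩ := hn (w (y m)) (w.av.nonneg _)
  have hβ0 : β ≠ 0 := by
    rintro rfl
    rw [norm_zero] at hβ
    exact hpos.ne hβ
  have hβK : algebraMap C K β ≠ 0 := (map_ne_zero _).2 hβ0
  have hβW : algebraMap C W β ≠ 0 := (map_ne_zero _).2 hβ0
  have hβpos : 0 < ‖β‖ := norm_pos_iff.2 hβ0
  -- coefficients with `i0` replaced
  have hY : ∀ a : K, w a ≤ 1 → w1 (∑ i, algebraMap K W (if i = i0 then a else
      (algebraMap C K β)⁻¹ * y i) * u i) = 1 := by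
    intro a ha
    have hle : ∀ i, w (if i = i0 then a else (algebraMap C K β)⁻¹ * y i) ≤ 1 := by
      intro i
      split_ifs with h
      · exact ha
      · rw [map_mul, map_inv₀, w.ext', inv_mul_le_iff₀ hβpos, mul_one, hβ]
        exact hm' i h
    have hmm : w (if m = i0 then a else (algebraMap C K β)⁻¹ * y m) = 1 := by
      rw [if_neg hm, map_mul, map_inv₀, w.ext', hβ, inv_mul_cancel₀ hpos.ne']
    rw [hu.eq hw hn (fun i => if i = i0 then a else (algebraMap C K β)⁻¹ * y i) m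
      (fun i => by rw [hmm]; exact hle i), hmm]
  obtain ⟨z, hz⟩ : ∃ z : W, z = ∑ i, algebraMap K W (if i = i0 then 0 else
      (algebraMap C K β)⁻¹ * y i) * u i := ⟨_, rfl⟩
  have hsplit : ∀ a : K, ∑ i, algebraMap K W (if i = i0 then a else
      (algebraMap C K β)⁻¹ * y i) * u i = algebraMap K W a + z := by
    intro a
    rw [hz, ← Finset.add_sum_erase _ _ (Finset.mem_univ i0),
      ← Finset.add_sum_erase Finset.univ (fun i => algebraMap K W (if i = i0 then 0 else
      (algebraMap C K β)⁻¹ * y i) * u i) (Finset.mem_univ i0)]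
    rw [if_pos rfl, if_pos rfl, hu0, mul_one, map_zero, zero_mul, zero_add]
    congr 1
    refine Finset.sum_congr rfl fun i hi => ?_
    rw [if_neg (Finset.ne_of_mem_erase hi), if_neg (Finset.ne_of_mem_erase hi)]
  refine ⟨β, z, hβ0, ?_, ?_, ?_⟩
  · rw [hz]; exact hY 0 (by rw [map_zero]; exact zero_le_one)
  · have h1 : algebraMap C W β * z = ∑ i, algebraMap K W (if i = i0 then 0 else y i) * u i := by
      rw [hz, Finset.mul_sum]
      refine Finset.sum_congr rfl fun i _ => ?_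
      split_ifs with h
      · rw [map_zero, zero_mul, mul_zero]
      · rw [← mul_assoc, IsScalarTower.algebraMap_apply C K W, ← map_mul, ← mul_assoc,
          mul_inv_cancel₀ hβK, one_mul]
    rw [h1, ← Finset.add_sum_erase Finset.univ _ (Finset.mem_univ i0), hu0, mul_one]
    congr 1
    rw [← Finset.add_sum_erase Finset.univ (fun i => algebraMap K W (if i = i0 then 0 else y i) *
      u i) (Finset.mem_univ i0), if_pos rfl, map_zero, zero_mul, zero_add]
    refine Finset.sum_congr rfl fun i hi => ?_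
    rw [if_neg (Finset.ne_of_mem_erase hi)]
  · intro a ha
    have h1 := hY (-a) (by rw [NV.map_neg']; exact ha)
    rw [hsplit, map_neg] at h1
    rw [sub_eq_neg_add]
    exact h1

/-- **(7.2a)**: the alternative for `p`-th powers. -/
theorem alt {w : NV C K} {w1 : NV C W} {ι : Type*} [Fintype ι] {u : ι → W}
    (hw : ∀ x : K, w1 (algebraMap K W x) = w x) (hn : ∀ r : ℝ, 0 ≤ r → ∃ x : C, ‖x‖ = r)
    (hu : RedFam w w1 u) {i0 : ι} (hu0 : u i0 = 1)
    (hspan : ∀ x : W, ∃ y : ι → K, x = ∑ i, algebraMap K W (y i) * u i)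
    {p : ℕ} (hp : p.Prime) (hp1 : ‖(p : C)‖ < 1)
    {f : K} (hf : f ≠ 0) {φ : W} (hφ : φ ^ p = algebraMap K W f)
    {r : ℝ} (hr0 : 0 ≤ r) (hr : r ^ (p - 1) = ‖(p : C)‖) :
    (∃ y : K, y ≠ 0 ∧ w (f / y ^ p - 1) ≤ r ^ p) ∨
      ∃ (y : K) (β : C) (b : K), y ≠ 0 ∧ r ^ p < ‖β‖ ∧ ‖β‖ ≤ 1 ∧ w b = 1 ∧
        f / y ^ p - 1 = algebraMap C K β * b ∧ ∀ a : K, w a ≤ 1 → w (b - a ^ p) = 1 := by
  have hp2 : 2 ≤ p := hp.two_le
  have hpp : p - 1 + 1 = p := by omega
  have hrlt : r < 1 := by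
    by_contra h
    push Not at h
    have := one_le_pow₀ h (n := p - 1)
    rw [hr] at this
    exact absurd this (not_le.2 hp1)
  have hrp : r ^ p < 1 := pow_lt_one₀ hr0 hrlt (by omega)
  have hφ0 : φ ≠ 0 := by
    rintro rfl
    rw [zero_pow (by omega)] at hφ
    exact hf ((map_eq_zero _).1 hφ.symm)
  have hpW : w1 (p : W) = ‖(p : C)‖ := nv_natCast w1 p
  obtain ⟨y, hy⟩ := hspan φ
  rcases hu.nearest hw hn hu0 y with h0 | ⟨β, z, hβ0, hz1, hz2, hz3⟩
  · -- `φ ∈ K`
    left
    have h1 : φ = algebraMap K W (y i0) := by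
      rw [hy, Finset.sum_eq_single i0, hu0, mul_one]
      · intro i _ hi
        rw [h0 i hi, map_zero, zero_mul]
      · intro h; exact absurd (Finset.mem_univ _) h
    have h2 : y i0 ≠ 0 := by
      intro h
      rw [h1, h, map_zero] at hφ0
      exact hφ0 rfl
    refine ⟨y i0, h2, ?_⟩
    rw [h1, ← map_pow] at hφ
    rw [← (algebraMap K W).injective hφ, div_self (pow_ne_zero _ h2), sub_self, map_zero]
    exact pow_nonneg hr0 _
  rw [← hy] at hz2
  have hβK : algebraMap C K β ≠ 0 := (map_ne_zero _).2 hβ0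
  have hβW : algebraMap C W β ≠ 0 := (map_ne_zero _).2 hβ0
  have hβpos : 0 < ‖β‖ := norm_pos_iff.2 hβ0
  by_cases hcase : w (y i0) ≤ ‖β‖
  · -- the residue of `φ / β` is not in the residue field of `K`
    right
    obtain ⟨a0, ha0⟩ : ∃ a0 : K, a0 = y i0 / algebraMap C K β := ⟨_, rfl⟩
    have ha0' : w a0 ≤ 1 := by
      rw [ha0, map_div₀, w.ext', div_le_one hβpos]
      exact hcase
    obtain ⟨x, hx⟩ : ∃ x : W, x = z + algebraMap K W a0 := ⟨_, rfl⟩
    have hx1 : w1 x ≤ 1 := by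
      rw [hx]; exact NV.add_le hz1.le (by rw [hw]; exact ha0')
    have hφx : φ = algebraMap C W β * x := by
      rw [hz2, hx, ha0, mul_add, map_div₀, ← IsScalarTower.algebraMap_apply C K W,
        mul_div_cancel₀ _ hβW, add_comm]
    have hfx : algebraMap K W (f / algebraMap C K β ^ p) = x ^ p := by
      rw [map_div₀, map_pow, ← hφ, ← IsScalarTower.algebraMap_apply C K W, hφx, mul_pow,
        mul_div_cancel_left₀ _ (pow_ne_zero _ hβW)]
    have key : ∀ a : K, w a ≤ 1 → w (f / algebraMap C K β ^ p - 1 - a ^ p) = 1 := by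
      intro a ha
      have hc1 : w (1 + a) ≤ 1 := NV.add_le (by rw [map_one]) ha
      obtain ⟨s, hs1, hs2⟩ := add_pow_ring w1 hp (x := x - algebraMap K W (1 + a))
        (y := algebraMap K W (1 + a)) (NV.sub_le hx1 (by rw [hw]; exact hc1))
        (by rw [hw]; exact hc1)
      obtain ⟨s', hs'1, hs'2⟩ := add_pow_ring w1 hp (x := (1 : W)) (y := algebraMap K W a)
        (by rw [map_one]) (by rw [hw]; exact ha)
      rw [sub_add_cancel] at hs2
      have h1 : algebraMap K W (f / algebraMap C K β ^ p - 1 - a ^ p) =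
          (x - algebraMap K W (1 + a)) ^ p + (p : W) * ((x - algebraMap K W (1 + a)) *
            algebraMap K W (1 + a) * s + algebraMap K W a * s') := by
        rw [map_sub, map_sub, hfx, map_one, hs2, map_pow]
        have : (algebraMap K W (1 + a)) ^ p =
            1 + algebraMap K W a ^ p + p * algebraMap K W a * s' := by
          rw [map_add, map_one, hs'2, one_pow]; ring
        rw [this]; ring
      have h2 : w1 ((x - algebraMap K W (1 + a)) ^ p) = 1 := by
        have h3 : x - algebraMap K W (1 + a) = z - algebraMap K W (1 + a - a0) := by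
          rw [hx, map_sub]; ring
        rw [map_pow, h3, hz3 _ (NV.sub_le hc1 ha0'), one_pow]
      have h4 : w1 ((p : W) * ((x - algebraMap K W (1 + a)) *
            algebraMap K W (1 + a) * s + algebraMap K W a * s')) < 1 := by
        rw [map_mul, hpW]
        refine lt_of_le_of_lt (mul_le_of_le_one_right (norm_nonneg _) (NV.add_le
          (NV.mul_le_one (NV.mul_le_one (NV.sub_le hx1 (by rw [hw]; exact hc1))
            (by rw [hw]; exact hc1)) hs1) (NV.mul_le_one (by rw [hw]; exact ha) hs'1))) hp1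
      rw [← hw, h1]
      refine le_antisymm (NV.add_le h2.le h4.le) ?_
      by_contra hlt
      push Not at hlt
      have h5 := NV.sub_lt hlt h4
      rw [add_sub_cancel_right, h2] at h5
      exact lt_irrefl _ h5
    refine ⟨algebraMap C K β, 1, f / algebraMap C K β ^ p - 1, hβK, ?_, ?_, ?_, ?_, key⟩
    · rw [norm_one]; exact hrp
    · rw [norm_one]
    · have := key 0 (by rw [map_zero]; exact zero_le_one)
      rwa [zero_pow (by omega), sub_zero] at this
    · rw [map_one, one_mul]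
  push Not at hcase
  have hy0pos : 0 < w (y i0) := hβpos.trans hcase
  have hy00 : y i0 ≠ 0 := (w.av.pos_iff).1 hy0pos
  obtain ⟨γ, hγ⟩ := hn (‖β‖ / w (y i0)) (div_nonneg (norm_nonneg _) hy0pos.le)
  have hγlt : ‖γ‖ < 1 := by rw [hγ, div_lt_one hy0pos]; exact hcase
  have hγpos : 0 < ‖γ‖ := by rw [hγ]; exact div_pos hβpos hy0pos
  have hγ0 : γ ≠ 0 := norm_pos_iff.1 hγpos
  have hγK : algebraMap C K γ ≠ 0 := (map_ne_zero _).2 hγ0
  have hγW : algebraMap C W γ ≠ 0 := (map_ne_zero _).2 hγ0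
  obtain ⟨e, he⟩ : ∃ e : K, e = algebraMap C K β / (y i0 * algebraMap C K γ) := ⟨_, rfl⟩
  have he1 : w e = 1 := by
    rw [he, map_div₀, map_mul, w.ext', w.ext', hγ, mul_div_cancel₀ _ hy0pos.ne',
      div_self hβpos.ne']
  have he0 : e ≠ 0 := by
    intro h; rw [h, map_zero] at he1; exact zero_ne_one he1
  obtain ⟨z', hz'⟩ : ∃ z' : W, z' = algebraMap K W e * z := ⟨_, rfl⟩
  have hz'1 : w1 z' = 1 := by rw [hz', map_mul, hw, he1, hz1, one_mul]
  have hz'3 : ∀ a : K, w a ≤ 1 → w1 (z' - algebraMap K W a) = 1 := by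
    intro a ha
    have h1 : z' - algebraMap K W a = algebraMap K W e * (z - algebraMap K W (a / e)) := by
      rw [hz', mul_sub, ← map_mul, mul_div_cancel₀ _ he0]
    rw [h1, map_mul, hw, he1, one_mul]
    refine hz3 _ ?_
    rw [map_div₀, he1, div_one]
    exact ha
  have hyW : algebraMap K W (y i0) ≠ 0 := (map_ne_zero _).2 hy00
  have hφz : φ = algebraMap K W (y i0) * (1 + algebraMap C W γ * z') := by
    rw [hz2, hz', he, mul_add, mul_one, map_div₀, map_mul, ← IsScalarTower.algebraMap_apply C K W,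
      ← IsScalarTower.algebraMap_apply C K W]
    congr 1
    field_simp
  have hγz : w1 (algebraMap C W γ * z') = ‖γ‖ := by rw [map_mul, w1.ext', hz'1, mul_one]
  obtain ⟨s, hs1, hs2⟩ := add_pow_ring w1 hp (x := (1 : W)) (y := algebraMap C W γ * z')
    (by rw [map_one]) (by rw [hγz]; exact hγlt.le)
  have hfy : algebraMap K W (f / y i0 ^ p - 1) =
      (algebraMap C W γ) ^ p * z' ^ p + p * (algebraMap C W γ * z') * s := by
    rw [map_sub, map_div₀, map_pow, ← hφ, hφz, mul_pow, mul_div_cancel_left₀ _ (pow_ne_zero _ hyW),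
      hs2, map_one]
    ring
  by_cases hγc : ‖γ‖ ^ (p - 1) ≤ ‖(p : C)‖
  · left
    refine ⟨y i0, hy00, ?_⟩
    have hγr : ‖γ‖ ≤ r := by
      rw [← hr] at hγc
      exact (pow_le_pow_iff_left₀ (norm_nonneg _) hr0 (by omega)).1 hγc
    rw [← hw, hfy]
    refine NV.add_le ?_ ?_
    · rw [map_mul, map_pow, map_pow, w1.ext', hz'1, one_pow, mul_one]
      exact pow_le_pow_left₀ (norm_nonneg _) hγr p
    · rw [map_mul, map_mul, hpW, hγz, ← hr]
      refine (mul_le_of_le_one_right (mul_nonneg (pow_nonneg hr0 _) (norm_nonneg _)) hs1).trans ?_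
      calc r ^ (p - 1) * ‖γ‖ ≤ r ^ (p - 1) * r :=
            mul_le_mul_of_nonneg_left hγr (pow_nonneg hr0 _)
        _ = r ^ p := by rw [← pow_succ, hpp]
  · right
    push Not at hγc
    have hrγ : r < ‖γ‖ := by
      rw [← hr] at hγc
      exact lt_of_pow_lt_pow_left₀ _ (norm_nonneg _) hγc
    have hγp : (algebraMap C K γ) ^ p ≠ 0 := pow_ne_zero _ hγK
    obtain ⟨b, hb⟩ : ∃ b : K, b = (f / y i0 ^ p - 1) / (algebraMap C K γ) ^ p := ⟨_, rfl⟩
    have hbW : algebraMap K W b = z' ^ p +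
        algebraMap C W (p / γ ^ (p - 1)) * (z' * s) := by
      have hγWp : (algebraMap C W γ) ^ p = algebraMap C W γ ^ (p - 1) * algebraMap C W γ := by
        rw [← pow_succ, hpp]
      have h1 : (algebraMap C W γ) ^ (p - 1) ≠ 0 := pow_ne_zero _ hγW
      rw [hb, map_div₀, hfy, map_pow, ← IsScalarTower.algebraMap_apply C K W, map_div₀, map_pow,
        map_natCast, hγWp]
      field_simp
    have hδ : ‖(p : C) / γ ^ (p - 1)‖ < 1 := by
      rw [norm_div, norm_pow, div_lt_one (pow_pos hγpos _)]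
      exact hγc
    have key : ∀ a : K, w a ≤ 1 → w (b - a ^ p) = 1 := by
      intro a ha
      obtain ⟨s', hs'1, hs'2⟩ := add_pow_ring w1 hp (x := z' - algebraMap K W a)
        (y := algebraMap K W a) (by rw [hz'3 a ha]) (by rw [hw]; exact ha)
      rw [sub_add_cancel] at hs'2
      have h1 : algebraMap K W (b - a ^ p) = (z' - algebraMap K W a) ^ p +
          ((p : W) * ((z' - algebraMap K W a) * algebraMap K W a * s') +
            algebraMap C W (p / γ ^ (p - 1)) * (z' * s)) := by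
        rw [map_sub, hbW, hs'2, map_pow]; ring
      have h2 : w1 ((z' - algebraMap K W a) ^ p) = 1 := by
        rw [map_pow, hz'3 a ha, one_pow]
      have h4 : w1 ((p : W) * ((z' - algebraMap K W a) * algebraMap K W a * s') +
            algebraMap C W (p / γ ^ (p - 1)) * (z' * s)) < 1 := by
        refine NV.add_lt ?_ ?_
        · rw [map_mul, hpW]
          exact lt_of_le_of_lt (mul_le_of_le_one_right (norm_nonneg _)
            (NV.mul_le_one (NV.mul_le_one (by rw [hz'3 a ha]) (by rw [hw]; exact ha)) hs'1)) hp1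
        · rw [map_mul, w1.ext']
          exact lt_of_le_of_lt (mul_le_of_le_one_right (norm_nonneg _)
            (NV.mul_le_one hz'1.le hs1)) hδ
      rw [← hw, h1]
      refine le_antisymm (NV.add_le h2.le h4.le) ?_
      by_contra hlt
      push Not at hlt
      have h5 := NV.sub_lt hlt h4
      rw [add_sub_cancel_right, h2] at h5
      exact lt_irrefl _ h5
    refine ⟨y i0, γ ^ p, b, hy00, ?_, ?_, ?_, ?_, key⟩
    · rw [norm_pow]; exact pow_lt_pow_left₀ hrγ hr0 (by omega)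
    · rw [norm_pow]; exact pow_le_one₀ (norm_nonneg _) hγlt.le
    · have := key 0 (by rw [map_zero]; exact zero_le_one)
      rwa [zero_pow (by omega), sub_zero] at this
    · rw [hb, map_pow, mul_div_cancel₀ _ hγp]

omit [IsUltrametricDist C] [IsScalarTower C K W] in
/-- the condition of the second alternative in terms of the residue field. -/
theorem red_ne_pow [IsUltrametricDist C] {w : NV C K} {b : K} {p : ℕ} (hb : w b ≤ 1)
    (h : ∀ a : K, w a ≤ 1 → w (b - a ^ p) = 1) (α : kap w) : α ^ p ≠ w.red b := by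
  intro hα
  obtain ⟨a, ha, rfl⟩ := NV.red_surj α
  have h1 : w.red (b - a ^ p) = 0 := by
    rw [NV.red_sub hb (NV.pow_le_one' ha p), NV.red_pow ha, hα, sub_self]
  rw [NV.red_eq_zero (NV.sub_le hb (NV.pow_le_one' ha p)), h a ha] at h1
  exact lt_irrefl _ h1

/-- **(7.2a)**: the alternative, without roots of real numbers (`NearW` of helper621). -/
theorem alt' {w : NV C K} {w1 : NV C W} {ι : Type*} [Fintype ι] {u : ι → W}
    (hw : ∀ x : K, w1 (algebraMap K W x) = w x) (hn : ∀ r : ℝ, 0 ≤ r → ∃ x : C, ‖x‖ = r)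
    (hu : RedFam w w1 u) {i0 : ι} (hu0 : u i0 = 1)
    (hspan : ∀ x : W, ∃ y : ι → K, x = ∑ i, algebraMap K W (y i) * u i)
    {p : ℕ} (hp : p.Prime) (hp1 : ‖(p : C)‖ < 1)
    {f : K} (hf : f ≠ 0) {φ : W} (hφ : φ ^ p = algebraMap K W f) :
    (∃ y : K, y ≠ 0 ∧ w (f / y ^ p - 1) ^ (p - 1) ≤ ‖(p : C)‖ ^ p) ∨
      ∃ (y : K) (β : C) (b : K), y ≠ 0 ∧ ‖(p : C)‖ ^ p < ‖β‖ ^ (p - 1) ∧ ‖β‖ ≤ 1 ∧ w b = 1 ∧
        f / y ^ p - 1 = algebraMap C K β * b ∧ ∀ α : kap w, α ^ p ≠ w.red b := by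
  have hp2 : 2 ≤ p := hp.two_le
  obtain ⟨r, hr0, hr⟩ : ∃ r : ℝ, 0 ≤ r ∧ r ^ (p - 1) = ‖(p : C)‖ :=
    ⟨‖(p : C)‖ ^ (((p - 1 : ℕ) : ℝ)⁻¹), Real.rpow_nonneg (norm_nonneg _) _,
      Real.rpow_inv_natCast_pow (norm_nonneg _) (by omega)⟩
  have e : (r ^ p) ^ (p - 1) = ‖(p : C)‖ ^ p := by
    rw [← hr, ← pow_mul, ← pow_mul, mul_comm]
  rcases alt hw hn hu hu0 hspan hp hp1 hf hφ hr0 hr with ⟨y, hy0, hy⟩ |
    ⟨y, β, b, hy0, h1, h2, h3, h4, h5⟩
  · left
    refine ⟨y, hy0, ?_⟩
    rw [← e]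
    exact pow_le_pow_left₀ (w.av.nonneg _) hy _
  · right
    refine ⟨y, β, b, hy0, ?_, h2, h3, h4, red_ne_pow h3.le h5⟩
    rw [← e]
    exact pow_lt_pow_left₀ h1 (pow_nonneg hr0 _) (by omega)

end P025H992
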