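import Vale.Agent.P025.R2.H133.Gen

/-!
# An orthonormal `C(T)`-basis of `K` for the maximum of the absolute values over the Gauss norm
-/

open Finset Polynomial P025H373 P025H746 IntermediateField

set_option linter.unusedSectionVars false
set_option linter.style.haveILetI false

namespace P025H992

variable {C K : Type*} [NontriviallyNormedField C] [IsUltrametricDist C] [Field K] [Algebra C K]
  {T : K}

/-- rational functions, through `t ↦ T` -/
theorem exists_span [FiniteDimensional C⟮T⟯ K] (hT : Transcendental C T) {n : ℕ}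
    (hn : n = Module.finrank C⟮T⟯ K) {z : Fin n → K}
    (hz : ∀ P : Fin n → C[X], ∑ k, aeval T (P k) * z k = 0 → ∀ k, P k = 0) (x : K) :
    ∃ (Q : C[X]) (P : Fin n → C[X]), Q ≠ 0 ∧ aeval T Q * x = ∑ k, aeval T (P k) * z k := by
  classical
  letI : Algebra (RatFunc C) K := ratAlg T hT
  haveI : IsScalarTower C (RatFunc C) K := ratAlg_tower T hT
  have hX : T = algebraMap (RatFunc C) K RatFunc.X := (ratAlg_X T hT).symm
  haveI : FiniteDimensional (RatFunc C) K := (finite_rat hX).2 inferInstance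
  have hpol : ∀ P : C[X], algebraMap (RatFunc C) K (algebraMap C[X] (RatFunc C) P) = aeval T P := by
    intro P
    rw [algebraMap_poly, ← hX]
  letI : Algebra C[X] K := ((algebraMap (RatFunc C) K).comp (algebraMap C[X] (RatFunc C))).toAlgebra
  haveI : IsScalarTower C[X] (RatFunc C) K := IsScalarTower.of_algebraMap_eq fun _ => rfl
  have hsm : ∀ (P : C[X]) (y : K), P • y = aeval T P * y := by
    intro P y
    rw [Algebra.smul_def, ← hpol]
    rfl
  have h1 : LinearIndependent C[X] z := by
    rw [Fintype.linearIndependent_iff]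
    intro g hg
    refine hz g ?_
    rw [← hg]
    exact sum_congr rfl fun k _ => (hsm _ _).symm
  have h2 : LinearIndependent (RatFunc C) z := (LinearIndependent.iff_fractionRing C[X] (RatFunc C)).1 h1
  have h3 : Fintype.card (Fin n) = Module.finrank (RatFunc C) K := by
    rw [Fintype.card_fin, finrank_rat hX, hn]
  let b := basisOfLinearIndependentOfCardEqFinrank' z h2 h3
  obtain ⟨Q, hQ⟩ := IsLocalization.exist_integer_multiples (nonZeroDivisors C[X]) univ
    (fun k => b.repr x k)
  choose P hP using fun k => hQ k (mem_univ k)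
  refine ⟨Q, P, nonZeroDivisors.ne_zero Q.2, ?_⟩
  have h4 : ∑ k, b.repr x k • z k = x := by
    have := b.sum_repr x
    simpa [b] using this
  conv_lhs => rw [← h4, mul_sum]
  refine sum_congr rfl fun k _ => ?_
  have h5 := congrArg (algebraMap (RatFunc C) K) (hP k)
  rw [hpol] at h5
  rw [h5, ← hpol, Algebra.smul_def, Algebra.smul_def, map_mul, mul_assoc]

/-- **orthonormal basis over `C(T)`** -/
theorem exists_on [FiniteDimensional C⟮T⟯ K] (hT : Transcendental C T)
    (hK : ∑ w : {w : NV C K // w.OverG T}, Module.finrank (kC C)⟮w.1.red T⟯ (kap w.1) =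
      Module.finrank C⟮T⟯ K) :
    ∃ (n : ℕ) (z : Fin n → K), P025H133.ONB C T z := by
  classical
  have hfin := fun w : {w : NV C K // w.OverG T} => w.2.finite
  let f : {w : NV C K // w.OverG T} → ℕ := fun w => Module.finrank (kC C)⟮w.1.red T⟯ (kap w.1)
  let b : ∀ w : {w : NV C K // w.OverG T}, Module.Basis (Fin (f w)) (kC C)⟮w.1.red T⟯ (kap w.1) :=
    fun w => Module.finBasis _ _
  choose x hx1 hx2 using fun (w : {w : NV C K // w.OverG T}) (j : Fin (f w)) => NV.red_surj (b w j)
  choose y hy1 hy2 using fun (w : {w : NV C K // w.OverG T}) (j : Fin (f w)) =>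
    P025H458.exists_approx (ι := {v : NV C K // v.OverG T})
      (fun v => v.1.av) (fun v => v.1.na) (fun v => v.1.ext')
      (fun v v' h => Subtype.ext (NV.ext h)) w (x w j) zero_lt_one
  -- properties of `y`
  have hyle : ∀ w j (v : {v : NV C K // v.OverG T}), v.1 (y w j) ≤ 1 := by
    intro w j v
    by_cases h : v = w
    · subst h
      have h1 : y v j = x v j + (y v j - x v j) := by ring
      rw [h1]
      exact NV.add_le (hx1 v j) (hy1 v j).le
    · exact (hy2 w j v h).le
  have hyred : ∀ w j, w.1.red (y w j) = b w j := by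
    intro w j
    have h1 : y w j = x w j + (y w j - x w j) := by ring
    rw [h1, NV.red_add (hx1 w j) (hy1 w j).le, NV.red_of_lt (hy1 w j), add_zero, hx2]
  have hyred' : ∀ w j (v : {v : NV C K // v.OverG T}), v ≠ w → v.1.red (y w j) = 0 :=
    fun w j v h => NV.red_of_lt (hy2 w j v h)
  -- orthonormality, over the sigma type
  have key : ∀ (P : (Σ w : {w : NV C K // w.OverG T}, Fin (f w)) → C[X]) (r : ℝ),
      (∀ w : NV C K, w.OverG T → w (∑ s, aeval T (P s) * y s.1 s.2) ≤ r) → ∀ s, gp (P s) ≤ r := by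
    intro P r hr s
    obtain ⟨s₀, hs₀⟩ := by
      haveI : Nonempty (Σ w : {w : NV C K // w.OverG T}, Fin (f w)) := ⟨s⟩
      exact Finite.exists_max fun s => gp (P s)
    refine (hs₀ s).trans ?_
    by_contra hlt
    push Not at hlt
    have hr0 : 0 ≤ r := (s.1.1.av.nonneg _).trans (hr s.1.1 s.1.2)
    have hM : 0 < gp (P s₀) := hr0.trans_lt hlt
    obtain ⟨i, hi⟩ := exists_coeff_eq (P s₀)
    set c := (P s₀).coeff i with hc
    have hc0 : c ≠ 0 := by
      intro h
      rw [h, norm_zero] at hi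
      rw [← hi] at hM
      exact lt_irrefl _ hM
    have hcn : 0 < ‖c‖ := norm_pos_iff.mpr hc0
    let P' : (Σ w : {w : NV C K // w.OverG T}, Fin (f w)) → C[X] := fun s => Polynomial.C c⁻¹ * P s
    have hP'1 : ∀ s, gp (P' s) ≤ 1 := by
      intro s
      rw [gp_le_iff]
      intro k
      rw [coeff_C_mul, norm_mul, norm_inv, inv_mul_le_iff₀ hcn, mul_one, hi]
      exact (norm_coeff_le _ _).trans (hs₀ s)
    have hw := s₀.1.2
    have hT1 : s₀.1.1 T ≤ 1 := hw.apply_T.le
    have hlt1 : s₀.1.1 (∑ s, aeval T (P' s) * y s.1 s.2) < 1 := by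
      have h1 : ∑ s, aeval T (P' s) * y s.1 s.2 =
          algebraMap C K c⁻¹ * ∑ s, aeval T (P s) * y s.1 s.2 := by
        rw [mul_sum]
        refine sum_congr rfl fun s _ => ?_
        rw [map_mul, aeval_C, mul_assoc]
      rw [h1, map_mul, s₀.1.1.ext', norm_inv, inv_mul_lt_iff₀ hcn, mul_one, hi]
      exact (hr _ hw).trans_lt hlt
    have hle : ∀ s, s₀.1.1 (aeval T (P' s) * y s.1 s.2) ≤ 1 := fun s =>
      NV.mul_le_one (NV.aeval_le hT1 (hP'1 s)) (hyle _ _ _)
    have h0 : ∑ j, aeval (s₀.1.1.red T) (pred (P' ⟨s₀.1, j⟩)) * b s₀.1 j = 0 := by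
      rw [← NV.red_of_lt hlt1, NV.red_sum fun s _ => hle s, Fintype.sum_sigma,
        Finset.sum_eq_single s₀.1]
      · refine sum_congr rfl fun j _ => ?_
        rw [NV.red_mul (NV.aeval_le hT1 (hP'1 _)) (hyle _ _ _), NV.red_aeval hT1 (hP'1 _), hyred]
      · intro w _ hne
        refine Finset.sum_eq_zero fun j _ => ?_
        rw [NV.red_mul (NV.aeval_le hT1 (hP'1 _)) (hyle _ _ _), hyred' w j s₀.1 (Ne.symm hne),
          mul_zero]
      · intro h
        exact absurd (mem_univ _) h
    have h1 := Fintype.linearIndependent_iff.1 (b s₀.1).linearIndependent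
      (fun j => aeval (AdjoinSimple.gen (kC C) (s₀.1.1.red T)) (pred (P' ⟨s₀.1, j⟩))) (by
        rw [← h0]
        refine Finset.sum_congr rfl fun j _ => ?_
        rw [Algebra.smul_def]
        congr 1
        rw [← aeval_algebraMap_apply]
        rfl) s₀.2
    have h2 : aeval (s₀.1.1.red T) (pred (P' s₀)) = 0 := by
      have := congrArg (algebraMap (kC C)⟮s₀.1.1.red T⟯ (kap s₀.1.1)) h1
      rw [← aeval_algebraMap_apply, map_zero] at this
      exact this
    have h3 : pred (P' s₀) = 0 := (transcendental_iff.1 hw.transc_red) _ h2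
    have h4 := gp_lt_iff.1 ((pred_eq_zero (hP'1 s₀)).1 h3) i
    rw [coeff_C_mul, norm_mul, ← hc, norm_inv, inv_mul_cancel₀ hcn.ne'] at h4
    exact lt_irrefl _ h4
  -- reindex
  let e : (Σ w : {w : NV C K // w.OverG T}, Fin (f w)) ≃ Fin (Module.finrank C⟮T⟯ K) :=
    Fintype.equivFinOfCardEq (by rw [Fintype.card_sigma, ← hK]; simp [f])
  have hsum : ∀ P : Fin (Module.finrank C⟮T⟯ K) → C[X],
      ∑ k, aeval T (P k) * y (e.symm k).1 (e.symm k).2 = ∑ s, aeval T (P (e s)) * y s.1 s.2 := by
    intro P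
    rw [← Equiv.sum_comp e]
    refine sum_congr rfl fun s _ => ?_
    rw [e.symm_apply_apply]
  have hon : ∀ (P : Fin (Module.finrank C⟮T⟯ K) → C[X]) (r : ℝ),
      (∀ w : NV C K, w.OverG T → w (∑ k, aeval T (P k) * y (e.symm k).1 (e.symm k).2) ≤ r) →
      ∀ k, gp (P k) ≤ r := by
    intro P r hr k
    have h1 := key (fun s => P (e s)) r (fun w hw => by rw [← hsum]; exact hr w hw) (e.symm k)
    rwa [e.apply_symm_apply] at h1
  refine ⟨Module.finrank C⟮T⟯ K, fun k => y (e.symm k).1 (e.symm k).2, fun w hw k =>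
    hyle _ _ ⟨w, hw⟩, fun x => ?_, hon⟩
  refine exists_span hT rfl (fun P hP k => ?_) x
  have h1 := hon P 0 (fun w _ => by rw [hP, map_zero]) k
  exact gp_eq_zero.1 (le_antisymm h1 (gp_nonneg _))

end P025H992
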