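import Mathlib

/-!
# Kummer extensions of prime degree over fields containing an algebraically closed field
-/

set_option linter.all false

open IntermediateField Polynomial

namespace P025H992

theorem kummer_galois {C K W : Type*} [Field C] [IsAlgClosed C] [Field K] [Algebra C K] [Field W]
    [Algebra K W] {p : ℕ} (hp : p.Prime) (hp0 : (p : C) ≠ 0) {f : K} (hf : ∀ b : K, b ^ p ≠ f)
    {φ : W} (hφ : φ ^ p = algebraMap K W f) (htop : K⟮φ⟯ = ⊤) :
    FiniteDimensional K W ∧ Module.finrank K W = p ∧ IsGalois K W := by
  have hirr : Irreducible (X ^ p - Polynomial.C f : K[X]) := X_pow_sub_C_irreducible_of_prime hp hf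
  have hmonic : (X ^ p - Polynomial.C f : K[X]).Monic := monic_X_pow_sub_C _ hp.ne_zero
  have hroot : aeval φ (X ^ p - Polynomial.C f : K[X]) = 0 := by
    simp [hφ]
  have hmin : minpoly K φ = X ^ p - Polynomial.C f :=
    (minpoly.eq_of_irreducible_of_monic hirr hroot hmonic).symm
  have hint : IsIntegral K φ := ⟨_, hmonic, by simpa [aeval_def] using hroot⟩
  haveI hfd : FiniteDimensional K K⟮φ⟯ := IntermediateField.adjoin.finiteDimensional hint
  have hrank : Module.finrank K K⟮φ⟯ = p := by
    rw [IntermediateField.adjoin.finrank hint, hmin, natDegree_X_pow_sub_C]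
  rw [htop] at hfd hrank
  haveI : FiniteDimensional K W := by
    haveI := hfd
    exact Module.Finite.equiv (IntermediateField.topEquiv (F := K) (E := W)).toLinearEquiv
  have hrank' : Module.finrank K W = p := by
    rw [← hrank]
    exact (IntermediateField.topEquiv (F := K) (E := W)).toLinearEquiv.finrank_eq.symm
  refine ⟨inferInstance, hrank', ?_⟩
  haveI : NeZero (p : C) := ⟨hp0⟩
  have hprim : (primitiveRoots p K).Nonempty := by
    obtain ⟨ζ, hζ⟩ := HasEnoughRootsOfUnity.exists_primitiveRoot C p
    exact ⟨algebraMap C K ζ, (mem_primitiveRoots hp.pos).2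
      (hζ.map_of_injective (algebraMap C K).injective)⟩
  have hprim' : (primitiveRoots (Module.finrank K W) K).Nonempty := by rw [hrank']; exact hprim
  haveI hspl := isSplittingField_X_pow_sub_C_of_root_adjoin_eq_top hprim'
    (a := f) (α := φ) (by rw [hrank', hφ]) htop
  rw [hrank'] at hspl
  exact isGalois_of_isSplittingField_X_pow_sub_C hprim hirr W

end P025H992
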