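import Vale.Agent.P025.R2.H992.Pair2
import Vale.Agent.P025.R2.H992.Kummer

/-!
# Kummer covers of degree `p`: near or far (blueprint (7.2a))
-/

set_option linter.all false

open IntermediateField

namespace P025H992

open P025H746 P025H458

variable {C K W : Type*} [NontriviallyNormedField C] [IsUltrametricDist C] [Field K] [Algebra C K]
  [Field W] [Algebra C W] [Algebra K W] [IsScalarTower C K W]

/-- if `K` is dense in `W` for `w1`, then `p`-th powers of `W` in `K` are approximated by `p`-th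
powers of `K`. -/
theorem split_of_dense {w : NV C K} {w1 : NV C W} (hw : ∀ x : K, w1 (algebraMap K W x) = w x)
    (hd : ∀ (x : W) {ε : ℝ}, 0 < ε → ∃ y : K, w1 (x - algebraMap K W y) < ε) {p : ℕ}
    (hp : p ≠ 0) {f : K} (hf : f ≠ 0) {φ : W} (hφ : φ ^ p = algebraMap K W f) {ε : ℝ}
    (hε : 0 < ε) : ∃ y : K, y ≠ 0 ∧ w (f / y ^ p - 1) < ε := by
  have hφ0 : φ ≠ 0 := by
    rintro rfl
    rw [zero_pow hp] at hφ
    exact hf ((map_eq_zero _).1 hφ.symm)
  have hφpos : 0 < w1 φ := (w1.av.pos_iff).2 hφ0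
  obtain ⟨y, hy⟩ := hd φ (mul_pos (lt_min hε zero_lt_one) hφpos)
  have hmin1 : min ε 1 * w1 φ ≤ w1 φ :=
    (mul_le_mul_of_nonneg_right (min_le_right _ _) hφpos.le).trans (one_mul _).le
  have hyW : w1 (algebraMap K W y) = w1 φ := by
    have h1 : algebraMap K W y = φ - (φ - algebraMap K W y) := by ring
    refine le_antisymm ?_ ?_
    · rw [h1]; exact NV.sub_le le_rfl (hy.le.trans hmin1)
    · by_contra hlt
      push Not at hlt
      have h2 := NV.add_lt (hy.trans_le hmin1) hlt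
      rw [sub_add_cancel] at h2
      exact lt_irrefl _ h2
  have hy0 : y ≠ 0 := by
    rintro rfl
    rw [map_zero, map_zero] at hyW
    exact hφpos.ne hyW
  have hyW0 : algebraMap K W y ≠ 0 := (map_ne_zero _).2 hy0
  refine ⟨y, hy0, ?_⟩
  obtain ⟨u, hu⟩ : ∃ u : W, u = φ / algebraMap K W y := ⟨_, rfl⟩
  have hu1 : w1 (u - 1) < min ε 1 := by
    have h1 : u - 1 = (φ - algebraMap K W y) / algebraMap K W y := by
      rw [hu, sub_div, div_self hyW0]
    rw [h1, map_div₀, hyW, div_lt_iff₀ hφpos]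
    exact hy
  have hu2 : w1 u ≤ 1 := by
    have h1 : u = (u - 1) + 1 := by ring
    rw [h1]
    exact NV.add_le (hu1.le.trans (min_le_right _ _)) (by rw [map_one])
  have h2 : algebraMap K W (f / y ^ p - 1) = (∑ i ∈ Finset.range p, u ^ i) * (u - 1) := by
    rw [geom_sum_mul, map_sub, map_div₀, map_pow, ← hφ, hu, div_pow, map_one]
  rw [← hw, h2, map_mul]
  refine lt_of_le_of_lt (mul_le_of_le_one_left (w1.av.nonneg _) ?_)
    (hu1.trans_le (min_le_left _ _))
  exact NV.sum_le zero_le_one fun i _ => NV.pow_le_one' hu2 i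

theorem overG_res {w1 : NV C W} {T : K} :
    w1.OverG (algebraMap K W T) ↔ (resK K w1).OverG T := by
  constructor
  · intro h P
    rw [resK_apply, ← h P, Polynomial.aeval_algebraMap_apply]
  · intro h P
    rw [← h P, resK_apply, Polynomial.aeval_algebraMap_apply]

theorem resK_hw (v : NV C W) (x : K) : v (algebraMap K W x) = resK K v x := (resK_apply v x).symm

variable (K) in
/-- residue degree over the restriction. -/
noncomputable def rdv (v : NV C W) : ℕ := rdeg (w := resK K v) (w1 := v) (resK_hw v)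

/-- **near or far**: the alternative of (7.2a) for a Kummer cover `W = K(φ)`, `φ ^ p = f`, of
degree `p`, at an absolute value over the Gauss norm of `T`. -/
theorem near_or_far (hn : ∀ r : ℝ, 0 ≤ r → ∃ x : C, ‖x‖ = r) {p : ℕ} (hp : p.Prime)
    (hp0 : (p : C) ≠ 0) (hp1 : ‖(p : C)‖ < 1) [FiniteDimensional K W] [IsGalois K W]
    (hd : Module.finrank K W = p) {f : K} (hf : f ≠ 0) {φ : W} (hφ : φ ^ p = algebraMap K W f)
    {T : K} [Fintype {w : NV C K // w.OverG T}]
    [Fintype {w : NV C W // w.OverG (algebraMap K W T)}]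
    (hK : ∑ w : {w : NV C K // w.OverG T}, Module.finrank (kC C)⟮w.1.red T⟯ (kap w.1) =
      Module.finrank C⟮T⟯ K)
    (hW : ∑ w : {w : NV C W // w.OverG (algebraMap K W T)},
      Module.finrank (kC C)⟮w.1.red (algebraMap K W T)⟯ (kap w.1) =
      Module.finrank C⟮algebraMap K W T⟯ W)
    (hpos : ∀ w : NV C K, w.OverG T → 0 < Module.finrank (kC C)⟮w.red T⟯ (kap w))
    {w : NV C K} (hwT : w.OverG T) :
    (∃ y : K, y ≠ 0 ∧ w (f / y ^ p - 1) ^ (p - 1) ≤ ‖(p : C)‖ ^ p) ∨
      ∃ (y : K) (β : C) (b : K), y ≠ 0 ∧ ‖(p : C)‖ ^ p < ‖β‖ ^ (p - 1) ∧ ‖β‖ ≤ 1 ∧ w b = 1 ∧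
        f / y ^ p - 1 = algebraMap C K β * b ∧ ∀ α : kap w, α ^ p ≠ w.red b := by
  classical
  let ρ : {w : NV C W // w.OverG (algebraMap K W T)} → {w : NV C K // w.OverG T} :=
    fun v => ⟨resK K v.1, overG_res.1 v.2⟩
  have hcardG : Fintype.card (W ≃ₐ[K] W) = p := by
    rw [← Nat.card_eq_fintype_card, IsGalois.card_aut_eq_finrank, hd]
  have hfm : ∀ v : {w : NV C W // w.OverG (algebraMap K W T)},
      Module.finrank (kC C)⟮v.1.red (algebraMap K W T)⟯ (kap v.1) =
        Module.finrank (kC C)⟮(ρ v).1.red T⟯ (kap (ρ v).1) * rdv K v.1 := fun v =>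
    f_mul (w := resK K v.1) (w1 := v.1) (resK_hw v.1) T
  -- the fibres
  have hfib : ∀ w : {w : NV C K // w.OverG T},
      ∑ v ∈ Finset.univ.filter (fun v => ρ v = w),
        Module.finrank (kC C)⟮v.1.red (algebraMap K W T)⟯ (kap v.1) ≤
      p * Module.finrank (kC C)⟮w.1.red T⟯ (kap w.1) := by
    intro w
    by_cases hne : (Finset.univ.filter (fun v => ρ v = w)).Nonempty
    · obtain ⟨v0, hv0⟩ := hne
      have hv0' : ρ v0 = w := (Finset.mem_filter.1 hv0).2
      have hconj : ∀ v ∈ Finset.univ.filter (fun v => ρ v = w),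
          ∃ σ : W ≃ₐ[K] W, v.1 = cj σ v0.1 := by
        intro v hv
        refine exists_cj v0.1 v.1 ?_
        have h1 : ρ v0 = ρ v := by rw [hv0', (Finset.mem_filter.1 hv).2]
        exact congrArg Subtype.val h1
      rcases fixed_or hp hd v0.1 with hfix | hinj
      · have hsing : Finset.univ.filter (fun v => ρ v = w) = {v0} := by
          refine Finset.eq_singleton_iff_unique_mem.2 ⟨hv0, fun v hv => ?_⟩
          obtain ⟨σ, hσ⟩ := hconj v hv
          exact Subtype.ext (hσ.trans (hfix σ))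
        rw [hsing, Finset.sum_singleton, hfm, hv0', mul_comm]
        refine Nat.mul_le_mul_right _ ?_
        rw [← hd]
        exact rdeg_le (resK_hw v0.1) hn
      · have h1 : ∀ v ∈ Finset.univ.filter (fun v => ρ v = w),
            Module.finrank (kC C)⟮v.1.red (algebraMap K W T)⟯ (kap v.1) =
              Module.finrank (kC C)⟮w.1.red T⟯ (kap w.1) := by
          intro v hv
          obtain ⟨σ, hσ⟩ := hconj v hv
          have hinj' : ∀ τ τ' : W ≃ₐ[K] W, cj τ v.1 = cj τ' v.1 → τ = τ' := by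
            intro τ τ' h
            rw [hσ, ← cj_mul, ← cj_mul] at h
            exact mul_left_cancel (hinj _ _ h)
          have hr1 : rdv K v.1 = 1 :=
            rdeg_eq_one (resK_hw v.1) fun x => dense_of_inj hinj' x zero_lt_one
          rw [hfm, (Finset.mem_filter.1 hv).2, hr1, mul_one]
        rw [Finset.sum_congr rfl h1, Finset.sum_const, smul_eq_mul]
        refine Nat.mul_le_mul_right _ ?_
        have h2 : Finset.univ.filter (fun v => ρ v = w) ⊆
            (Finset.univ : Finset (W ≃ₐ[K] W)).image (fun σ =>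
              (⟨cj σ v0.1, by rw [overG_res, resK_cj]; exact overG_res.1 v0.2⟩ :
                {w : NV C W // w.OverG (algebraMap K W T)})) := by
          intro v hv
          obtain ⟨σ, hσ⟩ := hconj v hv
          exact Finset.mem_image.2 ⟨σ, Finset.mem_univ _, Subtype.ext hσ.symm⟩
        calc _ ≤ _ := Finset.card_le_card h2
          _ ≤ _ := Finset.card_image_le
          _ = p := by rw [Finset.card_univ, hcardG]
    · rw [Finset.not_nonempty_iff_eq_empty] at hne
      rw [hne, Finset.sum_empty]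
      exact Nat.zero_le _
  -- equality
  have htot : ∑ w : {w : NV C K // w.OverG T},
      ∑ v ∈ Finset.univ.filter (fun v => ρ v = w),
        Module.finrank (kC C)⟮v.1.red (algebraMap K W T)⟯ (kap v.1) =
      ∑ w : {w : NV C K // w.OverG T}, p * Module.finrank (kC C)⟮w.1.red T⟯ (kap w.1) := by
    rw [Finset.sum_fiberwise, hW, ← Finset.mul_sum, hK, finrank_adjoin (k := C) (E := K) (E' := W) T,
      hd, mul_comm]
  have heq := (Finset.sum_eq_sum_iff_of_le fun w _ => hfib w).1 htot ⟨w, hwT⟩ (Finset.mem_univ _)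
  have hne : (Finset.univ.filter (fun v => ρ v = ⟨w, hwT⟩)).Nonempty := by
    by_contra hcon
    rw [Finset.not_nonempty_iff_eq_empty] at hcon
    rw [hcon, Finset.sum_empty] at heq
    have h1 := Nat.mul_pos hp.pos (hpos w hwT)
    change 0 = p * Module.finrank (kC C)⟮w.red T⟯ (kap w) at heq
    omega
  obtain ⟨v0, hv0⟩ := hne
  have hv0' : ρ v0 = ⟨w, hwT⟩ := (Finset.mem_filter.1 hv0).2
  have hres : resK K v0.1 = w := congrArg Subtype.val hv0'
  subst hres
  rcases fixed_or hp hd v0.1 with hfix | hinj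
  · have hsing : Finset.univ.filter (fun v => ρ v = ⟨resK K v0.1, hwT⟩) = {v0} := by
      refine Finset.eq_singleton_iff_unique_mem.2 ⟨hv0, fun v hv => ?_⟩
      have h1 : ρ v0 = ρ v := by rw [hv0', (Finset.mem_filter.1 hv).2]
      have h2 : resK K v0.1 = resK K v.1 := congrArg (fun z => Subtype.val z) h1
      obtain ⟨σ, hσ⟩ := exists_cj (K := K) v0.1 v.1 h2
      exact Subtype.ext (hσ.trans (hfix σ))
    rw [hsing, Finset.sum_singleton, hfm] at heq
    have h2 : rdv K v0.1 = p := by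
      have h3 : Module.finrank (kC C)⟮(resK K v0.1).red T⟯ (kap (resK K v0.1)) * rdv K v0.1 =
          p * Module.finrank (kC C)⟮(resK K v0.1).red T⟯ (kap (resK K v0.1)) := heq
      rw [mul_comm p] at h3
      exact Nat.eq_of_mul_eq_mul_left (hpos _ hwT) h3
    obtain ⟨n, u, i0, hu, hu0, hspan⟩ := exists_redFam (resK_hw v0.1) hn
      (show rdv K v0.1 = _ by rw [h2, hd])
    exact alt' (resK_hw v0.1) hn hu hu0 hspan hp hp1 hf hφ
  · left
    have hppos : 0 < ‖(p : C)‖ := norm_pos_iff.2 hp0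
    obtain ⟨y, hy0, hy⟩ := split_of_dense (resK_hw v0.1)
      (fun x ε hε => dense_of_inj hinj x hε) hp.ne_zero hf hφ
      (lt_min zero_lt_one (pow_pos hppos p))
    refine ⟨y, hy0, ?_⟩
    have h1 : resK K v0.1 (f / y ^ p - 1) ≤ 1 := (hy.trans_le (min_le_left _ _)).le
    have hp2 := hp.two_le
    calc resK K v0.1 (f / y ^ p - 1) ^ (p - 1) ≤ resK K v0.1 (f / y ^ p - 1) ^ 1 :=
          pow_le_pow_of_le_one ((resK K v0.1).av.nonneg _) h1 (by omega)
      _ = resK K v0.1 (f / y ^ p - 1) := pow_one _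
      _ ≤ ‖(p : C)‖ ^ p := (hy.trans_le (min_le_right _ _)).le

/-- `near_or_far` with the Kummer hypotheses only. -/
theorem near_or_far' [IsAlgClosed C] (hn : ∀ r : ℝ, 0 ≤ r → ∃ x : C, ‖x‖ = r) {p : ℕ}
    (hp : p.Prime) (hp0 : (p : C) ≠ 0) (hp1 : ‖(p : C)‖ < 1) {f : K} (hf : f ≠ 0)
    (hfp : ∀ b : K, b ^ p ≠ f) {φ : W} (hφ : φ ^ p = algebraMap K W f) (htop : K⟮φ⟯ = ⊤)
    {T : K} [Fintype {w : NV C K // w.OverG T}]
    [Fintype {w : NV C W // w.OverG (algebraMap K W T)}]
    (hK : ∑ w : {w : NV C K // w.OverG T}, Module.finrank (kC C)⟮w.1.red T⟯ (kap w.1) =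
      Module.finrank C⟮T⟯ K)
    (hW : ∑ w : {w : NV C W // w.OverG (algebraMap K W T)},
      Module.finrank (kC C)⟮w.1.red (algebraMap K W T)⟯ (kap w.1) =
      Module.finrank C⟮algebraMap K W T⟯ W)
    (hpos : ∀ w : NV C K, w.OverG T → 0 < Module.finrank (kC C)⟮w.red T⟯ (kap w))
    {w : NV C K} (hwT : w.OverG T) :
    (∃ y : K, y ≠ 0 ∧ w (f / y ^ p - 1) ^ (p - 1) ≤ ‖(p : C)‖ ^ p) ∨
      ∃ (y : K) (β : C) (b : K), y ≠ 0 ∧ ‖(p : C)‖ ^ p < ‖β‖ ^ (p - 1) ∧ ‖β‖ ≤ 1 ∧ w b = 1 ∧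
        f / y ^ p - 1 = algebraMap C K β * b ∧ ∀ α : kap w, α ^ p ≠ w.red b := by
  obtain ⟨h1, h2, h3⟩ := kummer_galois hp hp0 hfp hφ htop
  exact near_or_far hn hp hp0 hp1 h2 hf hφ hK hW hpos hwT

end P025H992
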