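import Vale.Agent.P025.R2.H746.Defs
import Vale.Agent.P025.R2.H458.Red
import Vale.Agent.P025.R2.H816.J03

/-!
# G-STAB: the final count (blueprint (7.1))
-/

set_option linter.all false

open Polynomial IntermediateField
open Vale.Agent.P019P

namespace P025H992

open P025H746 P025H458

variable {C K : Type*} [NontriviallyNormedField C] [IsUltrametricDist C] [Field K] [Algebra C K]

/-- the dimension of a space of functions is at most the sum of the dimensions of spaces containing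
the reductions. -/
theorem finrank_le_sum (hC : Sph C) (hn : ∀ r : ℝ, 0 ≤ r → ∃ x : C, ‖x‖ = r)
    {ι : Type*} [Fintype ι] [Nonempty ι] (w : ι → NV C K)
    (V : Submodule C K) [FiniteDimensional C V]
    (L : ∀ i, Submodule (kC C) (kap (w i))) [∀ i, FiniteDimensional (kC C) (L i)]
    (hL : ∀ x ∈ V, (∀ i, w i x ≤ 1) → ∀ i, (w i).red x ∈ L i) :
    Module.finrank C V ≤ ∑ i, Module.finrank (kC C) (L i) := by
  classical
  let φ : (∀ i, L i) →ₗ[kC C] (∀ i, kap (w i)) :=
    LinearMap.pi fun i => (L i).subtype ∘ₗ LinearMap.proj i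
  have h1 : Module.finrank (kC C) (LinearMap.range φ) ≤ ∑ i, Module.finrank (kC C) (L i) := by
    refine (LinearMap.finrank_range_le φ).trans ?_
    rw [Module.finrank_pi_fintype]
  refine le_trans ?_ h1
  refine finrank_le_of_red hC hn (fun i => (w i).av) (fun i => (w i).na) (fun i c => (w i).ext' c)
    V (κ := kC C) cred cred_surj (fun c hc => (cred_eq_zero hc.le).2 hc)
    (M := ∀ i, kap (w i)) (LinearMap.range φ) (fun x i => (w i).red x) ?_ ?_ ?_ ?_
  · intro x y hx hy
    funext i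
    exact NV.red_add (hx i) (hy i)
  · intro c x hc hx
    funext i
    change (w i).red (c • x) = cred c • (w i).red x
    rw [Algebra.smul_def, Algebra.smul_def, NV.red_mul (by rw [(w i).ext']; exact hc) (hx i),
      NV.red_algebraMap hc]
  · intro x hx h i
    exact (NV.red_eq_zero (hx i)).1 (congrFun h i)
  · intro x hx h
    refine ⟨fun i => ⟨(w i).red x, hL x hx h i⟩, ?_⟩
    funext i
    rfl

/-- the final count of (7.1). -/
theorem count (hC : Sph C) (hn : ∀ r : ℝ, 0 ≤ r → ∃ x : C, ‖x‖ = r) [CFF C K] (T : K)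
    (hT : ∀ a : C, T ≠ algebraMap C K a) {ι : Type*} [Fintype ι] [Nonempty ι] (w : ι → NV C K)
    [hcff : ∀ i, CFF (kC C) (kap (w i))] (hT1 : ∀ i, w i T ≤ 1)
    (hTr : ∀ i a, (w i).red T ≠ algebraMap (kC C) (kap (w i)) a)
    (hfle : ∑ i, Module.finrank (kC C)⟮(w i).red T⟯ (kap (w i)) ≤ Module.finrank C⟮T⟯ K)
    (hred : ∀ (n : ℕ) x, x ∈ LL C (n • pol C T) → (∀ i, w i x ≤ 1) →
      ∀ i, (w i).red x ∈ LL (kC C) (n • pol (kC C) ((w i).red T))) :
    ∑ i, Module.finrank (kC C)⟮(w i).red T⟯ (kap (w i)) = Module.finrank C⟮T⟯ K ∧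
      ∑ i, ((gen (kC C) (kap (w i)) : ℤ) - 1) ≤ (gen C K : ℤ) - 1 := by
  classical
  obtain ⟨r₀, hr₀⟩ := exists_l_pol_eq hT
  choose r hr using fun i => exists_l_pol_eq (hTr i)
  have key : ∀ n : ℕ, r₀ + ∑ i, r i ≤ n →
      (n : ℤ) * Module.finrank C⟮T⟯ K + 1 - gen C K ≤
        n * (∑ i, Module.finrank (kC C)⟮(w i).red T⟯ (kap (w i)) : ℕ) -
          ∑ i, ((gen (kC C) (kap (w i)) : ℤ) - 1) := by
    intro n hn'
    have h0 := hr₀ n (by omega)
    have hi : ∀ i, (Module.finrank (kC C) (LL (kC C) (n • pol (kC C) ((w i).red T))) : ℤ) =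
        n * Module.finrank (kC C)⟮(w i).red T⟯ (kap (w i)) + 1 - gen (kC C) (kap (w i)) := by
      intro i
      refine hr i n ?_
      have := Finset.single_le_sum (f := r) (fun j _ => Nat.zero_le _) (Finset.mem_univ i)
      omega
    have h1 := finrank_le_sum hC hn w (LL C (n • pol C T))
      (fun i => LL (kC C) (n • pol (kC C) ((w i).red T))) (fun x hx h i => hred n x hx h i)
    have h2 : (Module.finrank C (LL C (n • pol C T)) : ℤ) ≤
        ∑ i, (Module.finrank (kC C) (LL (kC C) (n • pol (kC C) ((w i).red T))) : ℤ) := by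
      exact_mod_cast h1
    rw [h0, Finset.sum_congr rfl fun i _ => hi i] at h2
    refine h2.trans (le_of_eq ?_)
    push_cast
    rw [Finset.mul_sum, ← Finset.sum_sub_distrib]
    exact Finset.sum_congr rfl fun i _ => by ring
  have hge : Module.finrank C⟮T⟯ K ≤
      ∑ i, Module.finrank (kC C)⟮(w i).red T⟯ (kap (w i)) := by
    by_contra hlt
    push Not at hlt
    obtain ⟨A, hA⟩ : ∃ A : ℕ, A = ∑ i, Module.finrank (kC C)⟮(w i).red T⟯ (kap (w i)) := ⟨_, rfl⟩
    obtain ⟨G, hG⟩ : ∃ G : ℤ, G = ∑ i, ((gen (kC C) (kap (w i)) : ℤ) - 1) := ⟨_, rfl⟩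
    rw [← hA] at hlt
    have h1 := key (r₀ + ∑ i, r i + (gen C K + G.natAbs + 1)) (by omega)
    rw [← hA, ← hG] at h1
    have h2 : (A : ℤ) + 1 ≤ Module.finrank C⟮T⟯ K := by exact_mod_cast hlt
    have h3 : (0 : ℤ) ≤ ((r₀ + ∑ i, r i + (gen C K + G.natAbs + 1) : ℕ) : ℤ) :=
      Int.natCast_nonneg _
    have h4 := mul_le_mul_of_nonneg_left h2 h3
    have h5 : ((r₀ + ∑ i, r i + (gen C K + G.natAbs + 1) : ℕ) : ℤ) ≤ gen C K - G - 1 := by
      nlinarith
    have h6 : ((gen C K + G.natAbs + 1 : ℕ) : ℤ) ≤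
        ((r₀ + ∑ i, r i + (gen C K + G.natAbs + 1) : ℕ) : ℤ) := by
      exact_mod_cast Nat.le_add_left _ _
    have h7 := h6.trans h5
    push_cast at h7
    have h8 := neg_abs_le G
    linarith
  have heq := le_antisymm hfle hge
  refine ⟨heq, ?_⟩
  have h1 := key _ le_rfl
  rw [heq] at h1
  linarith

end P025H992
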