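import Vale.Agent.P025.R2.H816.J07

/-!
# Everywhere unramified Artin-Schreier classes (blueprint (7.4), module G-PRANK)
-/

set_option linter.all false

namespace P025H992

open Vale.Agent.P019P

section basic

variable {k F : Type*} [Field k] [Field F] [Algebra k F] [CFF k F]

theorem mem_iff_Mge {P : Plk k F} {z : F} : z ∈ P.1 ↔ z ∈ Mge P 0 := by
  rw [mem_iff_ord, mem_Mge]

theorem pow_mem_Mge {P : Plk k F} {n : ℤ} {z : F} (hz : z ∈ Mge P n) (m : ℕ) :
    z ^ m ∈ Mge P (m * n) := by
  by_cases h : z = 0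
  · rcases Nat.eq_zero_or_pos m with rfl | hm
    · right; rw [pow_zero, ord_one]; simp
    · left; rw [h, zero_pow hm.ne']
  · right
    rw [ord_pow]
    exact mul_le_mul_of_nonneg_left (hz.resolve_left h) (Int.natCast_nonneg m)

theorem wp_mem {P : Plk k F} {n : ℤ} (hn : n ≤ 0) {p : ℕ} (hp : 1 ≤ p) {z : F}
    (hz : z ∈ Mge P n) : z ^ p - z ∈ Mge P (p * n) := by
  refine Submodule.sub_mem _ (pow_mem_Mge hz p) (Mge_mono P ?_ hz)
  have : (1 : ℤ) ≤ p := by exact_mod_cast hp
  nlinarith

theorem wp_mem0 {P : Plk k F} {p : ℕ} (hp : 1 ≤ p) {z : F}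
    (hz : z ∈ Mge P 0) : z ^ p - z ∈ Mge P 0 := by
  have := wp_mem (le_refl 0) hp hz
  rwa [mul_zero] at this

theorem wp_mem_ord {P : Plk k F} {p : ℕ} (hp : 2 ≤ p) {b : F} (hb : b ≠ 0) (hb' : ord P b < 0) :
    b ^ p - b ≠ 0 ∧ ord P (b ^ p - b) = p * ord P b := by
  have hbp : b ^ p ≠ 0 := pow_ne_zero _ hb
  have h2 : (2 : ℤ) ≤ p := by exact_mod_cast hp
  have h := ord_add_of_lt (P := P) hbp (w := -b) (Or.inr (by
    rw [ord_pow, ord_neg]; nlinarith))
  rw [ord_pow, ← sub_eq_add_neg] at h
  exact h

/-- at a pole of `a`, an element `b` with `a - (b ^ p - b)` regular has `p * ord b = ord a`. -/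
theorem ord_of_wp {P : Plk k F} {p : ℕ} (hp : 2 ≤ p) {a b : F} (ha : a ∉ Mge P 0)
    (hab : a - (b ^ p - b) ∈ Mge P 0) : b ≠ 0 ∧ ord P b < 0 ∧ ord P a = p * ord P b := by
  have h1 : b ∉ Mge P 0 := by
    intro h
    refine ha ?_
    have := Submodule.add_mem _ hab (wp_mem0 (by omega : 1 ≤ p) h)
    rwa [sub_add_cancel] at this
  have hb : b ≠ 0 := fun h => h1 (Or.inl h)
  have hb' : ord P b < 0 := by
    by_contra hc
    exact h1 (Or.inr (not_lt.1 hc))
  obtain ⟨h2, h3⟩ := wp_mem_ord hp hb hb'
  refine ⟨hb, hb', ?_⟩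
  have h4 := ord_add_of_lt (P := P) h2 (w := a - (b ^ p - b)) (Mge_mono P (by
    rw [h3]
    have : (2 : ℤ) ≤ p := by exact_mod_cast hp
    nlinarith) hab)
  rw [add_sub_cancel, h3] at h4
  exact h4.2

end basic

section charp

variable (F : Type*) [Field F] (p : ℕ) [Fact p.Prime] [CharP F p]

/-- the Artin-Schreier map `b ↦ b ^ p - b`. -/
def wp : F →+ F where
  toFun b := b ^ p - b
  map_zero' := by rw [zero_pow (Fact.out : p.Prime).ne_zero, sub_zero]
  map_add' b c := by rw [add_pow_char]; ring

variable {F p} in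
theorem wp_apply (b : F) : wp F p b = b ^ p - b := rfl

variable (k : Type*) [Field k] [Algebra k F] [CFF k F]

/-- the elements `a` of `F` such that the Artin-Schreier extension `y ^ p - y = a` is unramified
at all places. -/
def ASunr : AddSubgroup F where
  carrier := {a | ∀ P : Plk k F, ∃ b : F, a - (b ^ p - b) ∈ P.1}
  zero_mem' := fun P => ⟨0, by
    rw [zero_pow (Fact.out : p.Prime).ne_zero]; simp⟩
  add_mem' := by
    intro a a' ha ha' P
    obtain ⟨b, hb⟩ := ha P
    obtain ⟨b', hb'⟩ := ha' P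
    refine ⟨b + b', ?_⟩
    have h := add_mem hb hb'
    have e : a - (b ^ p - b) + (a' - (b' ^ p - b')) = a + a' - ((b + b') ^ p - (b + b')) := by
      rw [add_pow_char]; ring
    rwa [e] at h
  neg_mem' := by
    intro a ha P
    obtain ⟨b, hb⟩ := ha P
    refine ⟨-b, ?_⟩
    have h := neg_mem hb
    have e : -(a - (b ^ p - b)) = -a - ((-b) ^ p - (-b)) := by
      have : (-b) ^ p = -(b ^ p) := by
        have h1 : (b + -b) ^ p = b ^ p + (-b) ^ p := add_pow_char _ _ _
        rw [add_neg_cancel, zero_pow (Fact.out : p.Prime).ne_zero] at h1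
        exact (neg_eq_of_add_eq_zero_right h1.symm).symm
      rw [this]; ring
    rwa [e] at h

variable {F k p}

theorem mem_ASunr {a : F} :
    a ∈ ASunr F p k ↔ ∀ P : Plk k F, ∃ b : F, a - (b ^ p - b) ∈ P.1 := Iff.rfl

theorem wp_mem_ASunr (b : F) : wp F p b ∈ ASunr F p k := fun P => ⟨b, by
  rw [wp_apply, sub_self]; exact zero_mem _⟩

include F in
theorem charP_const : CharP k p :=
  (RingHom.charP_iff (algebraMap k F) (algebraMap k F).injective p).2 inferInstance

include F in
/-- every constant is of the form `d ^ p - d`. -/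
theorem exists_wp_const (c : k) : ∃ d : k, d ^ p - d = c := by
  haveI : IsAlgClosed k := CFF.ac (k := k) (F := F)
  have hp : 1 < p := (Fact.out : p.Prime).one_lt
  have hdeg : (Polynomial.X ^ p - Polynomial.X - Polynomial.C c : Polynomial k).natDegree = p := by
    have h1 : (Polynomial.X + Polynomial.C c : Polynomial k).natDegree < 
        (Polynomial.X ^ p : Polynomial k).natDegree := by
      rw [Polynomial.natDegree_X_pow, Polynomial.natDegree_X_add_C]; exact hp
    rw [sub_sub, Polynomial.natDegree_sub_eq_left_of_natDegree_lt h1, Polynomial.natDegree_X_pow]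
  obtain ⟨d, hd⟩ := IsAlgClosed.exists_root
    (Polynomial.X ^ p - Polynomial.X - Polynomial.C c : Polynomial k) (by
      intro h
      have h2 : p = 0 := hdeg.symm.trans (Polynomial.natDegree_eq_of_degree_eq_some h)
      omega)
  refine ⟨d, ?_⟩
  rw [Polynomial.IsRoot, Polynomial.eval_sub, Polynomial.eval_sub, Polynomial.eval_pow,
    Polynomial.eval_X, Polynomial.eval_C] at hd
  exact sub_eq_zero.1 hd

include F in
theorem exists_pth_root (c : k) : ∃ d : k, d ^ p = c := by
  haveI : IsAlgClosed k := CFF.ac (k := k) (F := F)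
  exact IsAlgClosed.exists_pow_nat_eq c (Fact.out : p.Prime).pos

/-- local normal form: at a place `P`, modulo `b ^ p - b`, an element is regular or has a pole of
order prime to `p`. -/
theorem exists_normal (P : Plk k F) (a : F) :
    (∃ b : F, a - (b ^ p - b) ∈ P.1) ∨
      ∃ b : F, ord P (a - (b ^ p - b)) < 0 ∧ ¬ (p : ℤ) ∣ ord P (a - (b ^ p - b)) := by
  have hp : 2 ≤ p := (Fact.out : p.Prime).two_le
  have key : ∀ n : ℕ, ∀ a : F, a ∈ Mge P (-(n : ℤ)) → (∃ b : F, a - (b ^ p - b) ∈ P.1) ∨
      ∃ b : F, ord P (a - (b ^ p - b)) < 0 ∧ ¬ (p : ℤ) ∣ ord P (a - (b ^ p - b)) := by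
    intro n
    induction n with
    | zero =>
      intro a ha
      left
      refine ⟨0, ?_⟩
      rw [zero_pow (by omega), sub_zero, sub_zero, mem_iff_Mge]
      simpa using ha
    | succ n ih =>
      intro a ha
      by_cases ha' : a ∈ Mge P (-(n : ℤ))
      · exact ih a ha'
      have ha0 : a ≠ 0 := fun h => ha' (Or.inl h)
      have hord : ord P a = -((n : ℤ) + 1) := by
        have h1 := ha.resolve_left ha0
        push_cast at h1
        have h2 : ¬ (-(n : ℤ) ≤ ord P a) := fun h => ha' (Or.inr h)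
        omega
      by_cases hdvd : (p : ℤ) ∣ ord P a
      · obtain ⟨m, hm⟩ := hdvd
        obtain ⟨π, hπ0, hπ⟩ := exists_unif P
        have hz0 : π ^ m ≠ 0 := zpow_ne_zero _ hπ0
        have hz1 : ord P (π ^ m) = m := by rw [ord_zpow, hπ, mul_one]
        have hzp0 : (π ^ m) ^ p ≠ 0 := pow_ne_zero _ hz0
        obtain ⟨c, hc⟩ := exists_sub_mem hzp0 (n := ord P a) (P := P) (by
          rw [ord_pow, hz1, hm]) (w := a) (Or.inr le_rfl)
        obtain ⟨d, hd⟩ := exists_pth_root (F := F) (p := p) c
        have hb0 : (d • π ^ m) ^ p = c • (π ^ m) ^ p := by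
          rw [smul_pow, hd]
        have hm0 : m < 0 := by
          have : (0 : ℤ) < p := by exact_mod_cast (by omega : 0 < p)
          nlinarith
        have ha1 : a - ((d • π ^ m) ^ p - d • π ^ m) ∈ Mge P (-(n : ℤ)) := by
          have e : a - ((d • π ^ m) ^ p - d • π ^ m) = (a - c • (π ^ m) ^ p) + d • π ^ m := by
            rw [hb0]; ring
          rw [e]
          refine Submodule.add_mem _ (Mge_mono P (by rw [hord]; omega) hc)
            (Submodule.smul_mem _ _ (Or.inr ?_))
          rw [hz1]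
          have : (2 : ℤ) ≤ p := by exact_mod_cast hp
          nlinarith
        have hcomb : ∀ b : F, a - ((d • π ^ m + b) ^ p - (d • π ^ m + b)) =
            a - ((d • π ^ m) ^ p - d • π ^ m) - (b ^ p - b) := by
          intro b
          rw [add_pow_char]; ring
        rcases ih _ ha1 with ⟨b, hb⟩ | ⟨b, hb⟩
        · left
          refine ⟨d • π ^ m + b, ?_⟩
          rw [hcomb]; exact hb
        · right
          refine ⟨d • π ^ m + b, ?_⟩
          rw [hcomb]; exact hb
      · right
        refine ⟨0, ?_⟩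
        rw [zero_pow (by omega), sub_zero, sub_zero]
        exact ⟨by rw [hord]; omega, hdvd⟩
  refine key (-(ord P a)).toNat a (Or.inr ?_)
  have := Int.self_le_toNat (-(ord P a))
  omega

/-- an everywhere unramified class has a representative whose only pole is `Q`. -/
theorem exists_rep (Q : Plk k F) {a : F} (ha : a ∈ ASunr F p k) :
    ∃ f : F, a - (f ^ p - f) ∈ RO Q := by
  classical
  have hp : 2 ≤ p := (Fact.out : p.Prime).two_le
  have key : ∀ D : Plk k F →₀ ℤ, 0 ≤ D → ∀ a : F, a ∈ ASunr F p k →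
      (∀ P, P ≠ Q → a ∈ Mge P (-D P)) → ∃ f : F, a - (f ^ p - f) ∈ RO Q := by
    intro D hD
    refine dv_induct (motive := fun D => ∀ a : F, a ∈ ASunr F p k →
      (∀ P, P ≠ Q → a ∈ Mge P (-D P)) → ∃ f : F, a - (f ^ p - f) ∈ RO Q) (D := 0) ?_ ?_ hD
    · intro a _ h
      refine ⟨0, ?_⟩
      rw [zero_pow (by omega), sub_zero, sub_zero]
      refine mem_RO.2 fun P hP => ?_
      have h1 := h P hP
      rw [Finsupp.zero_apply, neg_zero] at h1
      exact h1
    · intro D P hD ih a ha h
      by_cases hPQ : P = Q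
      · refine ih a ha fun R hR => ?_
        have h1 := h R hR
        rw [Finsupp.add_apply, Finsupp.single_apply, if_neg (by rw [hPQ]; exact hR.symm),
          add_zero] at h1
        exact h1
      have hother : ∀ R, R ≠ P → (D + Finsupp.single P (1 : ℤ)) R = D R := fun R hR => by
        rw [Finsupp.add_apply, Finsupp.single_apply, if_neg (Ne.symm hR), add_zero]
      have hself : (D + Finsupp.single P (1 : ℤ)) P = D P + 1 := by
        rw [Finsupp.add_apply, Finsupp.single_eq_same]
      by_cases haP : a ∈ Mge P (-D P)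
      · refine ih a ha fun R hR => ?_
        by_cases hRP : R = P
        · rw [hRP]; exact haP
        · have h1 := h R hR
          rwa [hother R hRP] at h1
      have hDP : 0 ≤ D P := hD P
      have ha0 : a ≠ 0 := fun h => haP (Or.inl h)
      have hord : ord P a = -(D P + 1) := by
        have h1 := (h P hPQ).resolve_left ha0
        rw [hself] at h1
        have h2 : ¬ (-(D P) ≤ ord P a) := fun h => haP (Or.inr h)
        omega
      obtain ⟨b, hb⟩ := ha P
      rw [mem_iff_Mge] at hb
      have haP0 : a ∉ Mge P 0 := fun h' => haP (Mge_mono P (by omega) h')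
      obtain ⟨hb0, hb1, hb2⟩ := ord_of_wp hp haP0 hb
      obtain ⟨m, hm⟩ : ∃ m : ℤ, m = -ord P b := ⟨_, rfl⟩
      have hm0 : 0 < m := by omega
      obtain ⟨z, hz0, hz1, hz2⟩ := h4_exact
        (D := Finsupp.single P m + Finsupp.single Q (2 * (gen k F : ℤ))) P (by
          rw [map_add, h4RRA_dg_single, h4RRA_dg_single]; omega)
      have hzP : ord P z = -m := by
        rw [hz2, Finsupp.add_apply, h4RRA_single_self, h4RRA_single_ne hPQ, add_zero]
      have hzR : ∀ R, R ≠ P → R ≠ Q → z ∈ Mge R 0 := by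
        intro R hRP hRQ
        right
        have h1 := hz1 R
        rw [Finsupp.add_apply, h4RRA_single_ne hRP, h4RRA_single_ne hRQ, add_zero, neg_zero] at h1
        exact h1
      obtain ⟨c, hc⟩ := exists_sub_mem hz0 hzP (w := b) (Or.inr (by omega))
      have hcomb : ∀ f f' : F, a - ((f + f') ^ p - (f + f')) =
          a - (f ^ p - f) - (f' ^ p - f') := by
        intro f f'
        rw [add_pow_char]; ring
      have ha' : a - ((c • z) ^ p - c • z) ∈ ASunr F p k :=
        sub_mem ha (wp_mem_ASunr (c • z))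
      obtain ⟨f', hf'⟩ := ih _ ha' (fun R hR => by
        by_cases hRP : R = P
        · subst hRP
          have e : a - ((c • z) ^ p - c • z) =
              (a - (b ^ p - b)) + ((b - c • z) ^ p - (b - c • z)) := by
            have h1 : b ^ p = (b - c • z) ^ p + (c • z) ^ p := by
              rw [← add_pow_char, sub_add_cancel]
            rw [h1]; ring
          rw [e]
          refine Submodule.add_mem _ (Mge_mono R (by omega) hb) ?_
          have h2 := wp_mem (by omega : -m + 1 ≤ 0) (by omega : 1 ≤ p) hc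
          refine Mge_mono R ?_ h2
          have h3 : D R + 1 = p * m := by
            rw [hm]; rw [hord] at hb2; linarith
          have h4 : (2 : ℤ) ≤ p := by exact_mod_cast hp
          nlinarith
        · have h1 := h R hR
          rw [hother R hRP] at h1
          refine Submodule.sub_mem _ h1 (Mge_mono R (?_ : -D R ≤ 0)
            (wp_mem0 (by omega : 1 ≤ p) (Submodule.smul_mem _ _ (hzR R hRP hR))))
          have := hD R
          rw [Finsupp.zero_apply] at this
          omega)
      exact ⟨c • z + f', by rw [hcomb]; exact hf'⟩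
  refine key (pol k a) (pol_nonneg a) a ha fun P _ => ?_
  by_cases h0 : a = 0
  · exact Or.inl h0
  right
  rw [pol_apply]
  have := le_max_right (0 : ℤ) (-ord P a)
  omega

end charp

section dim

variable {k F : Type*} [Field k] [Field F] [Algebra k F] [CFF k F]

theorem frss_le {K V : Type*} [Field K] [AddCommGroup V] [Module K V] (v : V) :
    Module.finrank K (Submodule.span K {v}) ≤ 1 := by
  have := finrank_span_le_card (R := K) ({v} : Set V)
  simpa using this

/-- the polar parts of order at most `n` at `Q`. -/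
noncomputable def WW (Q : Plk k F) (n : ℕ) : Submodule k (F ⧸ Mge Q 0) :=
  (Mge Q (-(n : ℤ))).map (Mge Q 0).mkQ

theorem WW_fin (Q : Plk k F) (n : ℕ) :
    FiniteDimensional k (WW Q n) ∧ Module.finrank k (WW Q n) ≤ n := by
  induction n with
  | zero =>
    have h : WW Q 0 = ⊥ := by
      rw [WW, ← le_bot_iff, Submodule.map_le_iff_le_comap, Submodule.comap_bot, Submodule.ker_mkQ]
      simp
    rw [h]
    exact ⟨inferInstance, by simp⟩
  | succ n ih =>
    obtain ⟨h1, h2⟩ := ih
    obtain ⟨π, hπ0, hπ⟩ := exists_unif Q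
    have hz0 : π ^ (-((n : ℤ) + 1)) ≠ 0 := zpow_ne_zero _ hπ0
    have hz1 : ord Q (π ^ (-((n : ℤ) + 1))) = -((n : ℤ) + 1) := by rw [ord_zpow, hπ, mul_one]
    have hle : WW Q (n + 1) ≤ WW Q n ⊔ Submodule.span k {(Mge Q 0).mkQ (π ^ (-((n : ℤ) + 1)))} := by
      rintro _ ⟨w, hw, rfl⟩
      have hw' : w ∈ Mge Q (-((n : ℤ) + 1)) := by
        have : (-((n + 1 : ℕ) : ℤ)) = -((n : ℤ) + 1) := by push_cast; ring
        rw [← this]; exact hw
      obtain ⟨c, hc⟩ := exists_sub_mem hz0 hz1 hw'
      have e : w = (w - c • π ^ (-((n : ℤ) + 1))) + c • π ^ (-((n : ℤ) + 1)) := by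
        rw [sub_add_cancel]
      rw [e, map_add, map_smul]
      refine Submodule.add_mem_sup (Submodule.mem_map_of_mem ?_)
        (Submodule.smul_mem _ _ (Submodule.mem_span_singleton_self _))
      have : -((n : ℤ) + 1) + 1 = -(n : ℤ) := by ring
      rwa [this] at hc
    have h3 : FiniteDimensional k
        (WW Q n ⊔ Submodule.span k {(Mge Q 0).mkQ (π ^ (-((n : ℤ) + 1)))} :
          Submodule k (F ⧸ Mge Q 0)) := inferInstance
    refine ⟨Submodule.finiteDimensional_of_le hle, (Submodule.finrank_mono hle).trans ?_⟩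
    refine (Submodule.finrank_add_le_finrank_add_finrank _ _).trans ?_
    exact add_le_add h2 (frss_le _)

/-- the space of principal parts at `Q` modulo functions regular outside `Q` has dimension at most
the genus. -/
theorem card_le_gen (Q : Plk k F) {ι : Type*} [Fintype ι] (b : ι → F)
    (hb : ∀ l : ι → k, ∀ f ∈ RO Q, (∑ i, l i • b i) - f ∈ Mge Q 0 → l = 0) :
    Fintype.card ι ≤ gen k F := by
  classical
  obtain ⟨N, hN1, hN2⟩ : ∃ N : ℕ, 2 * gen k F ≤ N + 1 ∧ ∀ i, b i ∈ Mge Q (-(N : ℤ)) := by
    refine ⟨2 * gen k F + ∑ i, (-(ord Q (b i))).toNat, by omega, fun i => Or.inr ?_⟩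
    have h1 := Finset.single_le_sum (f := fun i => (-(ord Q (b i))).toNat)
      (fun j _ => Nat.zero_le _) (Finset.mem_univ i)
    have h2 := Int.self_le_toNat (-(ord Q (b i)))
    change (-(ord Q (b i))).toNat ≤ ∑ i, (-(ord Q (b i))).toNat at h1
    omega
  obtain ⟨hfin, hrank⟩ := WW_fin Q N
  let T : ((ι → k) × LP Q N) →ₗ[k] (F ⧸ Mge Q 0) :=
    (Mge Q 0).mkQ ∘ₗ ((Fintype.linearCombination k b).coprod (-(LP Q N).subtype))
  have hT : ∀ x : (ι → k) × LP Q N, T x = (Mge Q 0).mkQ ((∑ i, x.1 i • b i) - (x.2 : F)) := by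
    intro x
    simp only [T, LinearMap.comp_apply, LinearMap.coprod_apply, Fintype.linearCombination_apply,
      LinearMap.neg_apply, Submodule.subtype_apply, sub_eq_add_neg]
  have hrange : LinearMap.range T ≤ WW Q N := by
    rintro _ ⟨x, rfl⟩
    rw [hT]
    refine Submodule.mem_map_of_mem (Submodule.sub_mem _ (Submodule.sum_mem _ fun i _ =>
      Submodule.smul_mem _ _ (hN2 i)) ?_)
    have h1 := (mem_LP.1 x.2.2).2
    exact h1
  have h1 : Module.finrank k (LinearMap.range T) ≤ N := (Submodule.finrank_mono hrange).trans hrank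
  have hker : ∀ x ∈ LinearMap.ker T, x.1 = 0 ∧ ∃ c : k, (x.2 : F) = algebraMap k F c := by
    intro x hx
    rw [LinearMap.mem_ker, hT, Submodule.mkQ_apply, Submodule.Quotient.mk_eq_zero] at hx
    have hx1 : x.1 = 0 := hb x.1 (x.2 : F) (mem_LP.1 x.2.2).1 hx
    refine ⟨hx1, ?_⟩
    rw [hx1] at hx
    have hx2 : (x.2 : F) ∈ Mge Q 0 := by
      have := Submodule.neg_mem _ hx
      simpa using this
    have hx3 : (x.2 : F) ∈ RO Q := (mem_LP.1 x.2.2).1
    rcases hx2 with h0 | h0
    · exact ⟨0, by rw [h0, map_zero]⟩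
    · exact h4_const hx3 h0
  have h2 : Module.finrank k (LinearMap.ker T) ≤ 1 := by
    have hle : LinearMap.ker T ≤ Submodule.span k {((0 : ι → k), (⟨1, LP_one Q N⟩ : LP Q N))} := by
      intro x hx
      obtain ⟨hx1, c, hc⟩ := hker x hx
      refine Submodule.mem_span_singleton.2 ⟨c, ?_⟩
      refine Prod.ext ?_ (Subtype.ext ?_)
      · simp [hx1]
      · simp only [Prod.smul_snd, Submodule.coe_smul]
        rw [hc, Algebra.algebraMap_eq_smul_one]
    exact (Submodule.finrank_mono hle).trans (frss_le _)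
  have h3 := LinearMap.finrank_range_add_finrank_ker T
  rw [Module.finrank_prod, Module.finrank_pi] at h3
  have h4 := l_LP Q hN1
  omega

end dim

section main

variable {F : Type*} [Field F] {p : ℕ} [Fact p.Prime] [CharP F p]
variable {k : Type*} [Field k] [Algebra k F] [CFF k F]

/-- the fixed points of Frobenius are the integers. -/
theorem exists_int_of_pow_eq {x : k} [CharP k p] (h : x ^ p = x) : ∃ n : ℤ, (n : k) = x := by
  have hx : x ∈ (⊥ : Subfield k) := (Subfield.mem_bot_iff_pow_eq_self k p).2 h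
  exact (mem_bot_iff_intCast p k).1 hx

/-- `F_p`-independence modulo `b ^ p - b` implies `k`-independence of the principal parts. -/
theorem indep {Q : Plk k F} {ι : Type*} [Fintype ι] (a b : ι → F)
    (ha : ∀ i, a i ∈ RO Q) (hab : ∀ i, a i - (b i ^ p - b i) ∈ Mge Q 0)
    (hind : ∀ n : ι → ℤ, ∀ f : F, (∑ i, n i • a i) = f ^ p - f → ∀ i, (p : ℤ) ∣ n i) :
    ∀ l : ι → k, ∀ f ∈ RO Q, (∑ i, l i • b i) - f ∈ Mge Q 0 → l = 0 := by
  classical
  have hp : 2 ≤ p := (Fact.out : p.Prime).two_le
  haveI hk : CharP k p := charP_const (F := F)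
  have key : ∀ n : ℕ, ∀ l : ι → k, (Finset.univ.filter fun i => l i ≠ 0).card ≤ n →
      ∀ f ∈ RO Q, (∑ i, l i • b i) - f ∈ Mge Q 0 → l = 0 := by
    intro n
    induction n with
    | zero =>
      intro l hl f _ _
      funext i
      by_contra hi
      have : i ∈ Finset.univ.filter fun i => l i ≠ 0 := by simp; exact hi
      have := Finset.card_pos.2 ⟨i, this⟩
      omega
    | succ n ih =>
      intro l hl f hf h
      by_contra hne
      obtain ⟨i0, hi0⟩ : ∃ i, l i ≠ 0 := by
        by_contra hc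
        push Not at hc
        exact hne (funext hc)
      -- scale
      obtain ⟨m, hm⟩ : ∃ m : ι → k, m = (l i0)⁻¹ • l := ⟨_, rfl⟩
      have hm0 : m i0 = 1 := by rw [hm]; simp [hi0]
      have hmi : ∀ i, m i = 0 ↔ l i = 0 := by
        intro i; rw [hm]; simp [hi0]
      obtain ⟨f1, hf1⟩ : ∃ f1 : F, f1 = (l i0)⁻¹ • f := ⟨_, rfl⟩
      have hf1' : f1 ∈ RO Q := by rw [hf1]; exact Subalgebra.smul_mem _ hf _
      have h1 : (∑ i, m i • b i) - f1 ∈ Mge Q 0 := by
        have := Submodule.smul_mem _ (l i0)⁻¹ h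
        rw [smul_sub, Finset.smul_sum] at this
        rw [hm, hf1]
        simpa [smul_smul] using this
      -- the p-th power of the relation
      have h2 : (∑ i, (m i) ^ p • b i) - (f1 ^ p - ∑ i, (m i) ^ p • a i) ∈ Mge Q 0 := by
        have h3 := pow_mem_Mge h1 p
        rw [mul_zero] at h3
        have h4 : ((∑ i, m i • b i) - f1) ^ p = (∑ i, (m i) ^ p • (b i) ^ p) - f1 ^ p := by
          rw [sub_pow_char, sum_pow_char]
          congr 1
          exact Finset.sum_congr rfl fun i _ => smul_pow _ _ _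
        rw [h4] at h3
        have h5 : ∑ i, (m i) ^ p • (a i - (b i ^ p - b i)) ∈ Mge Q 0 :=
          Submodule.sum_mem _ fun i _ => Submodule.smul_mem _ _ (hab i)
        have h6 := Submodule.add_mem _ h3 h5
        have e : (∑ i, (m i) ^ p • (b i) ^ p) - f1 ^ p +
            ∑ i, (m i) ^ p • (a i - (b i ^ p - b i)) =
            (∑ i, (m i) ^ p • b i) - (f1 ^ p - ∑ i, (m i) ^ p • a i) := by
          simp only [smul_sub, Finset.sum_sub_distrib]
          ring
        rwa [e] at h6
      have hg : f1 ^ p - ∑ i, (m i) ^ p • a i ∈ RO Q :=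
        Subalgebra.sub_mem _ (Subalgebra.pow_mem _ hf1' p)
          (Subalgebra.sum_mem _ fun i _ => Subalgebra.smul_mem _ (ha i) _)
      -- the difference has smaller support
      have h7 : (∑ i, ((m i) ^ p - m i) • b i) -
          (f1 ^ p - (∑ i, (m i) ^ p • a i) - f1) ∈ Mge Q 0 := by
        have := Submodule.sub_mem _ h2 h1
        have e : (∑ i, (m i) ^ p • b i) - (f1 ^ p - ∑ i, (m i) ^ p • a i) -
            ((∑ i, m i • b i) - f1) = (∑ i, ((m i) ^ p - m i) • b i) -
          (f1 ^ p - (∑ i, (m i) ^ p • a i) - f1) := by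
          simp only [sub_smul, Finset.sum_sub_distrib]
          ring
        rwa [e] at this
      have h8 : (fun i => (m i) ^ p - m i) = 0 := by
        refine ih _ ?_ _ (Subalgebra.sub_mem _ hg hf1') h7
        have hlt : (Finset.univ.filter fun i => (m i) ^ p - m i ≠ 0) ⊂
            Finset.univ.filter fun i => l i ≠ 0 := by
          rw [Finset.ssubset_iff_of_subset]
          · refine ⟨i0, by simp [hi0], by simp [hm0]⟩
          · intro i hi
            simp only [Finset.mem_filter, Finset.mem_univ, true_and] at hi ⊢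
            intro hc
            apply hi
            rw [(hmi i).2 hc, zero_pow (by omega), sub_zero]
        have := Finset.card_lt_card hlt
        omega
      have h9 : ∀ i, ∃ n : ℤ, (n : k) = m i := fun i =>
        exists_int_of_pow_eq (p := p) (sub_eq_zero.1 (congrFun h8 i))
      choose N hN using h9
      have h10 : (∑ i, m i • b i) = ∑ i, N i • b i :=
        Finset.sum_congr rfl fun i _ => by rw [← hN i, Int.cast_smul_eq_zsmul]
      rw [h10] at h1
      have h11 := wp_mem0 (by omega : 1 ≤ p) h1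
      have h12 : ∑ i, N i • (a i - (b i ^ p - b i)) ∈ Mge Q 0 :=
        Submodule.sum_mem _ fun i _ => by
          have := Submodule.smul_mem (Mge Q 0) ((N i : ℤ) : k) (hab i)
          rwa [Int.cast_smul_eq_zsmul] at this
      have h13 : (∑ i, N i • a i) - (f1 ^ p - f1) ∈ Mge Q 0 := by
        have h14 := Submodule.add_mem _ h11 h12
        have h15 : wp F p ((∑ i, N i • b i) - f1) = (∑ i, N i • wp F p (b i)) - wp F p f1 := by
          rw [map_sub, map_sum]
          simp only [map_zsmul]
        simp only [wp_apply] at h15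
        rw [h15] at h14
        have e : (∑ i, N i • (b i ^ p - b i)) - (f1 ^ p - f1) +
            ∑ i, N i • (a i - (b i ^ p - b i)) = (∑ i, N i • a i) - (f1 ^ p - f1) := by
          simp only [smul_sub, Finset.sum_sub_distrib]
          ring
        rwa [e] at h14
      have h16 : (∑ i, N i • a i) - (f1 ^ p - f1) ∈ RO Q := by
        refine Subalgebra.sub_mem _ (Subalgebra.sum_mem _ fun i _ => ?_)
          (Subalgebra.sub_mem _ (Subalgebra.pow_mem _ hf1' p) hf1')
        exact zsmul_mem (ha i) _
      obtain ⟨c, hc⟩ : ∃ c : k, (∑ i, N i • a i) - (f1 ^ p - f1) = algebraMap k F c := by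
        rcases h13 with h0 | h0
        · exact ⟨0, by rw [h0, map_zero]⟩
        · exact h4_const h16 h0
      obtain ⟨d, hd⟩ := exists_wp_const (F := F) (p := p) c
      have h17 : (∑ i, N i • a i) =
          (f1 + algebraMap k F d) ^ p - (f1 + algebraMap k F d) := by
        rw [← hd, map_sub, map_pow] at hc
        rw [add_pow_char, ← sub_eq_zero]
        rw [← sub_eq_zero] at hc
        rw [← hc]; ring
      obtain ⟨q, hq⟩ := hind N _ h17 i0
      have h18 : (N i0 : k) = 0 := by
        rw [hq, Int.cast_mul, Int.cast_natCast, CharP.cast_eq_zero, zero_mul]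
      rw [hN i0, hm0] at h18
      exact one_ne_zero h18
  intro l
  exact key _ l le_rfl

/-- independent everywhere unramified classes: there are at most `gen k F` of them. -/
theorem card_indep_le {ι : Type*} [Fintype ι] (a : ι → F) (ha : ∀ i, a i ∈ ASunr F p k)
    (hind : ∀ n : ι → ℤ, ∀ f : F, (∑ i, n i • a i) = f ^ p - f → ∀ i, (p : ℤ) ∣ n i) :
    Fintype.card ι ≤ gen k F := by
  obtain ⟨Q⟩ := nonempty_Plk (k := k) (F := F)
  choose f hf using fun i => exists_rep Q (ha i)
  have ha' : ∀ i, a i - (f i ^ p - f i) ∈ ASunr F p k := fun i => sub_mem (ha i) (wp_mem_ASunr _)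
  choose b hb using fun i => ha' i Q
  refine card_le_gen Q b (indep (p := p) (fun i => a i - (f i ^ p - f i)) b hf
    (fun i => mem_iff_Mge.1 (hb i)) ?_)
  intro n g hg
  refine hind n (g + ∑ i, n i • f i) ?_
  have h1 : wp F p (g + ∑ i, n i • f i) = wp F p g + ∑ i, n i • wp F p (f i) := by
    rw [map_add, map_sum]
    simp only [map_zsmul]
  rw [← wp_apply, h1, wp_apply, ← hg]
  simp only [wp_apply, smul_sub, Finset.sum_sub_distrib]
  ring

omit [CharP F p] [CFF k F] in
theorem card_of_rank_le {V : Type*} [AddCommGroup V] [Module (ZMod p) V] {n : ℕ}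
    (h : Module.rank (ZMod p) V ≤ n) : Finite V ∧ Nat.card V ≤ p ^ n := by
  have hlt : Module.rank (ZMod p) V < Cardinal.aleph0 :=
    lt_of_le_of_lt h Cardinal.natCast_lt_aleph0
  haveI : Module.Finite (ZMod p) V := Module.rank_lt_aleph0_iff.1 hlt
  haveI : Finite V := Module.finite_of_finite (ZMod p)
  refine ⟨this, ?_⟩
  haveI := Fintype.ofFinite V
  rw [Nat.card_eq_fintype_card, Module.card_eq_pow_finrank (K := ZMod p), ZMod.card]
  exact Nat.pow_le_pow_right (Fact.out : p.Prime).pos (Module.finrank_le_of_rank_le h)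

variable (F p k) in
/-- the group of everywhere unramified Artin-Schreier classes. -/
abbrev ASc : Type _ := ASunr F p k ⧸ (wp F p).range.addSubgroupOf (ASunr F p k)

/-- the number of everywhere unramified Artin-Schreier classes is at most `p ^ gen k F`. -/
theorem card_ASc_le : Finite (ASc F p k) ∧ Nat.card (ASc F p k) ≤ p ^ gen k F := by
  classical
  letI : Module (ZMod p) (ASc F p k) := AddCommGroup.zmodModule (by
    intro x
    obtain ⟨x, rfl⟩ := QuotientAddGroup.mk_surjective x
    rw [← QuotientAddGroup.mk_nsmul]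
    have : p • x = 0 := by
      refine Subtype.ext ?_
      rw [AddSubgroup.coe_nsmul, nsmul_eq_mul, CharP.cast_eq_zero, zero_mul]
      rfl
    rw [this]; rfl)
  have hrank : Module.rank (ZMod p) (ASc F p k) ≤ (gen k F : ℕ) := by
    refine rank_le fun s hs => ?_
    rw [← Fintype.card_coe]
    choose r hr using fun i : s => QuotientAddGroup.mk_surjective (i : ASc F p k)
    refine card_indep_le (p := p) (k := k) (fun i => (r i : F)) (fun i => (r i).2) ?_
    intro n f hf i
    have h1 : ∑ i : s, ((n i : ℤ) : ZMod p) • (i : ASc F p k) = 0 := by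
      have h2 : ∀ i : s, ((n i : ℤ) : ZMod p) • (i : ASc F p k) = QuotientAddGroup.mk (n i • r i) := by
        intro i
        rw [Int.cast_smul_eq_zsmul, QuotientAddGroup.mk_zsmul, hr i]
      rw [Finset.sum_congr rfl fun i _ => h2 i, ← QuotientAddGroup.mk_sum,
        QuotientAddGroup.eq_zero_iff, AddSubgroup.mem_addSubgroupOf]
      refine ⟨f, ?_⟩
      rw [wp_apply, ← hf, AddSubgroup.val_finset_sum]
      rfl
    have h3 := Fintype.linearIndependent_iff.1 hs (fun i => ((n i : ℤ) : ZMod p)) h1 i
    exact (ZMod.intCast_zmod_eq_zero_iff_dvd (n i) p).1 h3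
  exact card_of_rank_le hrank

/-- form with families: pairwise inequivalent everywhere unramified elements. -/
theorem card_family_le {ι : Type*} (a : ι → F)
    (ha : ∀ i, ∀ P : Plk k F, ∃ b : F, a i - (b ^ p - b) ∈ P.1)
    (hinj : ∀ i j, ∀ b : F, a i - a j = b ^ p - b → i = j) :
    Finite ι ∧ Nat.card ι ≤ p ^ gen k F := by
  obtain ⟨h1, h2⟩ := card_ASc_le (F := F) (p := p) (k := k)
  let φ : ι → ASc F p k := fun i => QuotientAddGroup.mk ⟨a i, ha i⟩
  have hφ : Function.Injective φ := by
    intro i j hij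
    have h3 : (⟨a j, ha j⟩ : ASunr F p k) - ⟨a i, ha i⟩ ∈
        (wp F p).range.addSubgroupOf (ASunr F p k) := by
      have h4 := QuotientAddGroup.eq.1 hij
      rwa [neg_add_eq_sub] at h4
    rw [AddSubgroup.mem_addSubgroupOf] at h3
    obtain ⟨b, hb⟩ := h3
    exact (hinj j i b (by rw [← wp_apply, hb]; rfl)).symm
  exact ⟨Finite.of_injective φ hφ, (Nat.card_le_card_of_injective φ hφ).trans h2⟩

end main

end P025H992
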