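import Vale.Agent.P025.R2.H992.Nearest
import Vale.Agent.P025.R2.H458.Approx

/-!
# Pairs of absolute values in a cyclic extension of prime degree (blueprint (7.2a))
-/

set_option linter.all false

open IntermediateField

namespace P025H992

open P025H746 P025H458

/-! ## Residue field maps -/

section residue

variable {C K W : Type*} [NormedField C] [IsUltrametricDist C] [Field K] [Algebra C K]
  [Field W] [Algebra C W] [Algebra K W] [IsScalarTower C K W]

/-- inclusion of valuation rings -/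
def rincl {w : NV C K} {w1 : NV C W} (hw : ∀ x : K, w1 (algebraMap K W x) = w x) :
    w.ring →+* w1.ring where
  toFun x := ⟨algebraMap K W x, by
    rw [NV.mem_ring, hw]
    exact x.2⟩
  map_one' := by ext; simp
  map_mul' _ _ := by ext; simp
  map_zero' := by ext; simp
  map_add' _ _ := by ext; simp

theorem rincl_local {w : NV C K} {w1 : NV C W} (hw : ∀ x : K, w1 (algebraMap K W x) = w x) :
    IsLocalHom (rincl hw) := by
  refine ⟨fun a ha => ?_⟩
  rw [isUnit_ring_iff] at ha ⊢
  rw [← hw]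
  exact ha

/-- the map of residue fields -/
noncomputable def kmap {w : NV C K} {w1 : NV C W} (hw : ∀ x : K, w1 (algebraMap K W x) = w x) :
    kap w →+* kap w1 :=
  haveI := rincl_local hw
  IsLocalRing.ResidueField.map (rincl hw)

theorem kmap_red {w : NV C K} {w1 : NV C W} (hw : ∀ x : K, w1 (algebraMap K W x) = w x) (x : K) :
    kmap hw (w.red x) = w1.red (algebraMap K W x) := by
  by_cases hx : w x ≤ 1
  · rw [NV.red_of hx, NV.red_of (by rw [hw]; exact hx)]
    haveI := rincl_local hw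
    exact IsLocalRing.ResidueField.map_residue (rincl hw) ⟨x, hx⟩
  · rw [NV.red, dif_neg hx, map_zero, NV.red, dif_neg (by rw [hw]; exact hx)]

/-- the map of residue fields as an algebra map over the residue field of `C`. -/
noncomputable def kmapA {w : NV C K} {w1 : NV C W}
    (hw : ∀ x : K, w1 (algebraMap K W x) = w x) : kap w →ₐ[kC C] kap w1 :=
  { kmap hw with
    commutes' := by
      intro c
      obtain ⟨c, hc, rfl⟩ := cred_surj c
      change kmap hw (algebraMap (kC C) (kap w) (cred c)) = _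
      rw [← NV.red_algebraMap hc, kmap_red, ← IsScalarTower.algebraMap_apply C K W,
        NV.red_algebraMap hc] }

theorem kmapA_red {w : NV C K} {w1 : NV C W} (hw : ∀ x : K, w1 (algebraMap K W x) = w x) (x : K) :
    kmapA hw (w.red x) = w1.red (algebraMap K W x) := kmap_red hw x

end residue

/-! ## Degrees -/

section degrees

/-- degrees over simple subfields. -/
theorem finrank_adjoin {k E E' : Type*} [Field k] [Field E] [Field E'] [Algebra k E]
    [Algebra k E'] [Algebra E E'] [IsScalarTower k E E'] (x : E) :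
    Module.finrank k⟮algebraMap E E' x⟯ E' = Module.finrank k⟮x⟯ E * Module.finrank E E' := by
  have h1 : Module.finrank k⟮x⟯ E * Module.finrank E E' = Module.finrank k⟮x⟯ E' :=
    Module.finrank_mul_finrank _ _ _
  rw [h1]
  have hmap : k⟮x⟯.map (IsScalarTower.toAlgHom k E E') = k⟮algebraMap E E' x⟯ := by
    rw [IntermediateField.adjoin_map, Set.image_singleton]
    rfl
  let i : k⟮x⟯ ≃ₐ[k] k⟮algebraMap E E' x⟯ :=
    (k⟮x⟯.equivMap (IsScalarTower.toAlgHom k E E')).trans (IntermediateField.equivOfEq hmap)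
  refine (Algebra.finrank_eq_of_equiv_equiv i.toRingEquiv (RingEquiv.refl E') ?_).symm
  ext y
  rfl

end degrees

/-! ## Conjugates -/

section conj

variable {C K W : Type*} [NontriviallyNormedField C] [IsUltrametricDist C] [Field K] [Algebra C K]
  [Field W] [Algebra C W] [Algebra K W] [IsScalarTower C K W]

/-- the restriction to `K`. -/
noncomputable def resK (K : Type*) [Field K] [Algebra C K] [Algebra K W] [IsScalarTower C K W]
    (w1 : NV C W) : NV C K where
  av := w1.av.comp (algebraMap K W).injective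
  na := fun x y => by
    change w1.av (algebraMap K W (x + y)) ≤ _
    rw [map_add]
    exact w1.na _ _
  ext' := fun c => by
    change w1.av (algebraMap K W (algebraMap C K c)) = _
    rw [← IsScalarTower.algebraMap_apply C K W]
    exact w1.ext' c

theorem resK_apply (w1 : NV C W) (x : K) : resK K w1 x = w1 (algebraMap K W x) := rfl

/-- the conjugate of an absolute value. -/
noncomputable def cj (σ : W ≃ₐ[K] W) (w1 : NV C W) : NV C W where
  av := w1.av.comp (f := (σ : W →+* W)) σ.injective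
  na := fun x y => by
    change w1.av (σ (x + y)) ≤ _
    rw [map_add]
    exact w1.na _ _
  ext' := fun c => by
    change w1.av (σ (algebraMap C W c)) = _
    rw [IsScalarTower.algebraMap_apply C K W, AlgEquiv.commutes,
      ← IsScalarTower.algebraMap_apply C K W]
    exact w1.ext' c

theorem cj_apply (σ : W ≃ₐ[K] W) (w1 : NV C W) (x : W) : cj σ w1 x = w1 (σ x) := rfl

theorem nv_ext {w w' : NV C W} (h : ∀ x, w x = w' x) : w = w' := by
  refine NV.ext ?_
  ext x
  exact h x

theorem cj_one (w1 : NV C W) : cj (1 : W ≃ₐ[K] W) w1 = w1 := nv_ext fun _ => rfl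

theorem cj_mul (σ τ : W ≃ₐ[K] W) (w1 : NV C W) : cj (σ * τ) w1 = cj τ (cj σ w1) :=
  nv_ext fun _ => rfl

theorem resK_cj (σ : W ≃ₐ[K] W) (w1 : NV C W) : resK K (cj σ w1) = resK K w1 := by
  refine nv_ext fun x => ?_
  rw [resK_apply, cj_apply, AlgEquiv.commutes, resK_apply]

/-- the extensions of an absolute value to a finite Galois extension are conjugate. -/
theorem exists_cj [FiniteDimensional K W] [IsGalois K W] (w1 w2 : NV C W)
    (h : resK K w1 = resK K w2) : ∃ σ : W ≃ₐ[K] W, w2 = cj σ w1 := by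
  classical
  by_contra hcon
  push Not at hcon
  let S : Set (AbsoluteValue W ℝ) :=
    Set.range (fun σ : W ≃ₐ[K] W => (cj σ w1).av) ∪ Set.range (fun σ : W ≃ₐ[K] W => (cj σ w2).av)
  have hSfin : S.Finite := (Set.finite_range _).union (Set.finite_range _)
  haveI : Finite S := hSfin
  haveI : Fintype S := Fintype.ofFinite S
  have hS1 : ∀ σ : W ≃ₐ[K] W, (cj σ w1).av ∈ S := fun σ => Or.inl ⟨σ, rfl⟩
  have hS2 : ∀ σ : W ≃ₐ[K] W, (cj σ w2).av ∈ S := fun σ => Or.inr ⟨σ, rfl⟩
  have hna : ∀ i : S, IsNonarchimedean (i : AbsoluteValue W ℝ) := by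
    rintro ⟨_, ⟨σ, rfl⟩ | ⟨σ, rfl⟩⟩
    · exact (cj σ w1).na
    · exact (cj σ w2).na
  have hext : ∀ (i : S) (c : C), (i : AbsoluteValue W ℝ) (algebraMap C W c) = ‖c‖ := by
    rintro ⟨_, ⟨σ, rfl⟩ | ⟨σ, rfl⟩⟩ c
    · exact (cj σ w1).ext' c
    · exact (cj σ w2).ext' c
  have hdisj : ∀ σ τ : W ≃ₐ[K] W, (cj σ w1).av ≠ (cj τ w2).av := by
    intro σ τ hst
    refine hcon (σ * τ⁻¹) ?_
    have h1 : cj σ w1 = cj τ w2 := NV.ext hst
    rw [cj_mul, h1, ← cj_mul, mul_inv_cancel, cj_one]
  choose y hy1 hy2 using fun i : S => exists_approx (fun i : S => (i : AbsoluteValue W ℝ)) hna hext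
    Subtype.val_injective i (1 : W) (ε := 1) zero_lt_one
  -- the sum over the conjugates of `w2`
  let S2 : Finset S := Finset.univ.filter fun i => ∃ τ : W ≃ₐ[K] W, (cj τ w2).av = i.1
  obtain ⟨x, hx⟩ : ∃ x : W, x = ∑ i ∈ S2, y i := ⟨_, rfl⟩
  have hx1 : ∀ σ : W ≃ₐ[K] W, w1 (σ x) < 1 := by
    intro σ
    change (cj σ w1).av x < 1
    rw [hx]
    refine na_sum_lt (cj σ w1).na _ _ zero_lt_one fun i hi => ?_
    refine hy2 i ⟨(cj σ w1).av, hS1 σ⟩ ?_
    rintro rfl
    obtain ⟨τ, hτ⟩ := (Finset.mem_filter.1 hi).2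
    exact hdisj σ τ hτ.symm
  have hx2 : ∀ σ : W ≃ₐ[K] W, w2 (σ x) = 1 := by
    intro σ
    have hmem : (⟨(cj σ w2).av, hS2 σ⟩ : S) ∈ S2 := Finset.mem_filter.2 ⟨Finset.mem_univ _, σ, rfl⟩
    have h1 : (cj σ w2).av (x - 1) < 1 := by
      rw [hx, ← Finset.add_sum_erase _ _ hmem, add_sub_right_comm]
      refine ((cj σ w2).na _ _).trans_lt (max_lt (hy1 ⟨(cj σ w2).av, hS2 σ⟩) ?_)
      refine na_sum_lt (cj σ w2).na _ _ zero_lt_one fun i hi => ?_
      exact hy2 i ⟨(cj σ w2).av, hS2 σ⟩ (Finset.ne_of_mem_erase hi).symm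
    have h2 : (cj σ w2) x ≤ 1 := by
      have : x = (x - 1) + 1 := by ring
      rw [this]
      exact NV.add_le h1.le (by rw [map_one])
    change (cj σ w2) x = 1
    refine le_antisymm h2 ?_
    by_contra hlt
    push Not at hlt
    have h3 := NV.sub_lt hlt h1
    rw [sub_sub_cancel, map_one] at h3
    exact lt_irrefl _ h3
  have hN := Algebra.norm_eq_prod_automorphisms K x
  have h1 : w1 (algebraMap K W (Algebra.norm K x)) < 1 := by
    rw [hN, map_prod]
    rw [← Finset.mul_prod_erase _ _ (Finset.mem_univ (1 : W ≃ₐ[K] W))]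
    exact mul_lt_one_of_nonneg_of_lt_one_left (w1.av.nonneg _) (hx1 1)
      (Finset.prod_le_one (fun σ _ => w1.av.nonneg _) fun σ _ => (hx1 σ).le)
  have h2 : w2 (algebraMap K W (Algebra.norm K x)) = 1 := by
    rw [hN, map_prod]
    exact Finset.prod_eq_one fun σ _ => hx2 σ
  rw [← resK_apply, h, resK_apply, h2] at h1
  exact lt_irrefl _ h1

/-- an absolute value is fixed by all of the Galois group of prime order, or all conjugates are
different. -/
theorem fixed_or [FiniteDimensional K W] [IsGalois K W] {p : ℕ} (hp : p.Prime)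
    (hd : Module.finrank K W = p) (w1 : NV C W) :
    (∀ σ : W ≃ₐ[K] W, cj σ w1 = w1) ∨
      ∀ σ τ : W ≃ₐ[K] W, cj σ w1 = cj τ w1 → σ = τ := by
  haveI : Fact p.Prime := ⟨hp⟩
  have hcard : Nat.card (W ≃ₐ[K] W) = p := by rw [IsGalois.card_aut_eq_finrank, hd]
  let H : Subgroup (W ≃ₐ[K] W) :=
    { carrier := {σ | cj σ w1 = w1}
      one_mem' := cj_one w1
      mul_mem' := by
        intro σ τ hσ hτ
        change cj (σ * τ) w1 = w1
        rw [cj_mul, show cj σ w1 = w1 from hσ]
        exact hτ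
      inv_mem' := by
        intro σ hσ
        change cj σ⁻¹ w1 = w1
        conv_lhs => rw [← show cj σ w1 = w1 from hσ]
        rw [← cj_mul, mul_inv_cancel, cj_one] }
  haveI : Fact (Nat.card (W ≃ₐ[K] W)).Prime := ⟨by rw [hcard]; exact hp⟩
  rcases H.eq_bot_or_eq_top_of_prime_card with h | h
  · right
    intro σ τ hst
    have h1 : σ * τ⁻¹ ∈ H := by
      change cj (σ * τ⁻¹) w1 = w1
      rw [cj_mul, hst, ← cj_mul, mul_inv_cancel, cj_one]
    rw [h, Subgroup.mem_bot] at h1
    exact mul_inv_eq_one.1 h1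
  · left
    intro σ
    have h1 : σ ∈ H := by rw [h]; exact Subgroup.mem_top σ
    exact h1

/-- density of `K` if all conjugates are different. -/
theorem dense_of_inj [FiniteDimensional K W] [IsGalois K W] {w1 : NV C W}
    (hinj : ∀ σ τ : W ≃ₐ[K] W, cj σ w1 = cj τ w1 → σ = τ) (x : W) {ε : ℝ} (hε : 0 < ε) :
    ∃ y : K, w1 (x - algebraMap K W y) < ε := by
  classical
  obtain ⟨y, hy1, hy2⟩ := exists_approx (fun σ : W ≃ₐ[K] W => (cj σ w1).av)
    (fun σ => (cj σ w1).na) (fun σ => (cj σ w1).ext')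
    (fun σ τ h => hinj σ τ (NV.ext h)) 1 x hε
  refine ⟨Algebra.trace K W y, ?_⟩
  rw [trace_eq_sum_automorphisms, ← NV.map_neg', neg_sub,
    ← Finset.add_sum_erase _ _ (Finset.mem_univ (1 : W ≃ₐ[K] W)), add_sub_right_comm]
  refine NV.add_lt hy1 (na_sum_lt w1.na _ _ hε fun σ hσ => ?_)
  exact hy2 σ (Finset.ne_of_mem_erase hσ)

end conj

end P025H992
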