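import Vale.Agent.P025.R2.H992.Pair

/-!
# Pairs of absolute values: residue degrees, and the alternative for Kummer covers
-/

set_option linter.all false

open IntermediateField

namespace P025H992

open P025H746 P025H458

section deg

variable {C K W : Type*} [NontriviallyNormedField C] [IsUltrametricDist C] [Field K] [Algebra C K]
  [Field W] [Algebra C W] [Algebra K W] [IsScalarTower C K W]

/-- `kap w1` as an algebra over `kap w`. -/
@[reducible] noncomputable def algk {w : NV C K} {w1 : NV C W}
    (hw : ∀ x : K, w1 (algebraMap K W x) = w x) : Algebra (kap w) (kap w1) := (kmap hw).toAlgebra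

theorem towk {w : NV C K} {w1 : NV C W} (hw : ∀ x : K, w1 (algebraMap K W x) = w x) :
    letI := algk hw
    IsScalarTower (kC C) (kap w) (kap w1) := by
  letI := algk hw
  exact IsScalarTower.of_algebraMap_eq fun c => ((kmapA hw).commutes c).symm

/-- residue degree of a pair. -/
noncomputable def rdeg {w : NV C K} {w1 : NV C W}
    (hw : ∀ x : K, w1 (algebraMap K W x) = w x) : ℕ :=
  letI := algk hw
  Module.finrank (kap w) (kap w1)

/-- multiplicativity of the residue degrees. -/
theorem f_mul {w : NV C K} {w1 : NV C W} (hw : ∀ x : K, w1 (algebraMap K W x) = w x) (T : K) :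
    Module.finrank (kC C)⟮w1.red (algebraMap K W T)⟯ (kap w1) =
      Module.finrank (kC C)⟮w.red T⟯ (kap w) * rdeg hw := by
  letI := algk hw
  haveI := towk hw
  have h := finrank_adjoin (k := kC C) (E := kap w) (E' := kap w1) (w.red T)
  have h1 : algebraMap (kap w) (kap w1) (w.red T) = w1.red (algebraMap K W T) := kmap_red hw T
  rw [h1] at h
  exact h

/-- lifts of independent residues. -/
theorem RedFam.of_indep {w : NV C K} {w1 : NV C W}
    (hw : ∀ x : K, w1 (algebraMap K W x) = w x) {ι : Type*} [Fintype ι] {u : ι → W}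
    (hu : ∀ i, w1 (u i) ≤ 1)
    (hind : ∀ c : ι → kap w, ∑ i, kmap hw (c i) * w1.red (u i) = 0 → ∀ i, c i = 0) :
    RedFam w w1 u where
  le := hu
  ind := by
    intro y hy hlt
    have hle : ∀ i, w1 (algebraMap K W (y i) * u i) ≤ 1 := fun i =>
      NV.mul_le_one (by rw [hw]; exact hy i) (hu i)
    have h1 : ∑ i, kmap hw (w.red (y i)) * w1.red (u i) = 0 := by
      rw [← NV.red_of_lt hlt, NV.red_sum fun i _ => hle i]
      refine Finset.sum_congr rfl fun i _ => ?_
      rw [NV.red_mul (by rw [hw]; exact hy i) (hu i), kmap_red]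
    intro i
    exact (NV.red_eq_zero (hy i)).1 (hind _ h1 i)

/-- a family with independent residues is linearly independent. -/
theorem RedFam.linearIndependent {w : NV C K} {w1 : NV C W}
    (hw : ∀ x : K, w1 (algebraMap K W x) = w x) (hn : ∀ r : ℝ, 0 ≤ r → ∃ x : C, ‖x‖ = r)
    {ι : Type*} [Fintype ι] {u : ι → W} (hu : RedFam w w1 u) : LinearIndependent K u := by
  classical
  rw [Fintype.linearIndependent_iff]
  intro g hg
  by_contra hcon
  push Not at hcon
  obtain ⟨i, hi⟩ := hcon
  obtain ⟨m, -, hm⟩ := Finset.exists_max_image Finset.univ (fun i => w (g i)) ⟨i, Finset.mem_univ i⟩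
  have h1 := hu.eq hw hn g m fun j => hm j (Finset.mem_univ j)
  have h2 : ∑ i, algebraMap K W (g i) * u i = 0 := by
    rw [← hg]
    exact Finset.sum_congr rfl fun i _ => (Algebra.smul_def _ _).symm
  rw [h2, map_zero] at h1
  have h3 := hm i (Finset.mem_univ i)
  rw [← h1] at h3
  exact hi (w.av.eq_zero.1 (le_antisymm h3 (w.av.nonneg _)))

/-- the residue degree is at most the degree. -/
theorem rdeg_le [FiniteDimensional K W] {w : NV C K} {w1 : NV C W}
    (hw : ∀ x : K, w1 (algebraMap K W x) = w x) (hn : ∀ r : ℝ, 0 ≤ r → ∃ x : C, ‖x‖ = r) :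
    rdeg hw ≤ Module.finrank K W := by
  letI := algk hw
  refine Module.finrank_le_of_rank_le (rank_le fun s hs => ?_)
  choose u hu1 hu2 using fun i : s => NV.red_surj (i : kap w1)
  have h1 : RedFam w w1 u := RedFam.of_indep hw hu1 (by
    intro c hc
    refine Fintype.linearIndependent_iff.1 hs c ?_
    rw [← hc]
    refine Finset.sum_congr rfl fun i _ => ?_
    rw [hu2, Algebra.smul_def]
    rfl)
  have h2 := (h1.linearIndependent hw hn).fintype_card_le_finrank
  rwa [Fintype.card_coe] at h2

/-- if `K` is dense in `W`, the residue degree is one. -/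
theorem rdeg_eq_one {w : NV C K} {w1 : NV C W}
    (hw : ∀ x : K, w1 (algebraMap K W x) = w x)
    (hd : ∀ x : W, ∃ y : K, w1 (x - algebraMap K W y) < 1) : rdeg hw = 1 := by
  letI := algk hw
  have hsurj : Function.Surjective (algebraMap (kap w) (kap w1)) := by
    intro a
    obtain ⟨x, hx, rfl⟩ := NV.red_surj a
    obtain ⟨y, hy⟩ := hd x
    refine ⟨w.red y, ?_⟩
    have h1 : w1 (algebraMap K W y) ≤ 1 := by
      have : algebraMap K W y = x - (x - algebraMap K W y) := by ring
      rw [this]
      exact NV.sub_le hx hy.le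
    change kmap hw (w.red y) = w1.red x
    rw [kmap_red]
    have h2 : w1.red (x - algebraMap K W y) = 0 := NV.red_of_lt hy
    rw [NV.red_sub hx h1, sub_eq_zero] at h2
    exact h2.symm
  have h2 : Function.Bijective (algebraMap (kap w) (kap w1)) :=
    ⟨(algebraMap (kap w) (kap w1)).injective, hsurj⟩
  change Module.finrank (kap w) (kap w1) = 1
  rw [← (LinearEquiv.ofBijective (Algebra.linearMap (kap w) (kap w1)) h2).finrank_eq,
    Module.finrank_self]

/-- a spanning family with independent residues, if the residue degree is the degree. -/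
theorem exists_redFam [FiniteDimensional K W] {w : NV C K} {w1 : NV C W}
    (hw : ∀ x : K, w1 (algebraMap K W x) = w x) (hn : ∀ r : ℝ, 0 ≤ r → ∃ x : C, ‖x‖ = r)
    (hd : rdeg hw = Module.finrank K W) :
    ∃ (n : ℕ) (u : Fin n → W) (i0 : Fin n), RedFam w w1 u ∧ u i0 = 1 ∧
      ∀ x : W, ∃ y : Fin n → K, x = ∑ i, algebraMap K W (y i) * u i := by
  classical
  letI := algk hw
  have hd' : Module.finrank (kap w) (kap w1) = Module.finrank K W := hd
  haveI hfin : FiniteDimensional (kap w) (kap w1) := by
    refine FiniteDimensional.of_finrank_pos ?_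
    rw [hd']
    exact Module.finrank_pos
  -- a basis containing `1`
  obtain ⟨n, b, i0, hb⟩ : ∃ (n : ℕ) (b : Module.Basis (Fin n) (kap w) (kap w1)) (i0 : Fin n),
      b i0 = 1 := by
    have hli : LinearIndepOn (kap w) id ({1} : Set (kap w1)) := by
      rw [LinearIndepOn]
      exact LinearIndependent.of_subsingleton (⟨1, rfl⟩ : ({1} : Set (kap w1))) one_ne_zero
    let B := Module.Basis.extend hli
    haveI : Fintype (hli.extend (Set.subset_univ _)) := FiniteDimensional.fintypeBasisIndex B
    let e := Fintype.equivFin (hli.extend (Set.subset_univ ({1} : Set (kap w1))))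
    refine ⟨_, B.reindex e, e ⟨1, hli.subset_extend _ rfl⟩, ?_⟩
    rw [Module.Basis.reindex_apply, Equiv.symm_apply_apply, Module.Basis.extend_apply_self]
  have hcard : n = Module.finrank K W := by
    rw [← hd', Module.finrank_eq_card_basis b, Fintype.card_fin]
  choose v hv1 hv2 using fun i => NV.red_surj (b i)
  obtain ⟨u, hu⟩ : ∃ u : Fin n → W, u = fun i => if i = i0 then 1 else v i := ⟨_, rfl⟩
  have hu1 : ∀ i, w1 (u i) ≤ 1 := by
    intro i
    rw [hu]
    change w1 (if i = i0 then 1 else v i) ≤ 1
    split_ifs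
    · rw [map_one]
    · exact hv1 i
  have hu2 : ∀ i, w1.red (u i) = b i := by
    intro i
    rw [hu]
    change w1.red (if i = i0 then 1 else v i) = b i
    split_ifs with h
    · rw [h, hb, NV.red_one]
    · exact hv2 i
  have hfam : RedFam w w1 u := RedFam.of_indep hw hu1 (by
    intro c hc
    refine Fintype.linearIndependent_iff.1 b.linearIndependent c ?_
    rw [← hc]
    refine Finset.sum_congr rfl fun i _ => ?_
    rw [hu2, Algebra.smul_def]
    rfl)
  have hli := hfam.linearIndependent hw hn
  haveI : Nonempty (Fin n) := ⟨i0⟩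
  refine ⟨n, u, i0, hfam, by rw [hu]; simp, fun x => ?_⟩
  let B := basisOfLinearIndependentOfCardEqFinrank hli (by rw [Fintype.card_fin, hcard])
  refine ⟨fun i => B.repr x i, ?_⟩
  conv_lhs => rw [← B.sum_repr x]
  refine Finset.sum_congr rfl fun i _ => ?_
  rw [Algebra.smul_def, coe_basisOfLinearIndependentOfCardEqFinrank]

end deg

end P025H992
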